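import Vale.Agent.P004E.H503.Ker

/-!
# P004E: the second moment of the strip functional
-/

open Real MeasureTheory Set Filter
open scoped ENNReal Topology ContDiff

namespace P004E
namespace Fin

open P004G P004G.Asm

variable [Crv]

/-- `u θ(u)`, `u = e^x / Y` -/
noncomputable def Ph (m : ℤ) (Y : ℕ) (x : ℝ) : ℝ := Real.exp x / Y * theta m (Real.exp x / Y)

lemma Ph_cont (m : ℤ) {Y : ℕ} (hY : 3 ≤ Y) : Continuous (Ph m Y) := by
  have hY0 : (0 : ℝ) < Y := by exact_mod_cast (by omega : 0 < Y)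
  unfold Ph
  refine (Real.continuous_exp.div_const _).mul ?_
  rw [continuous_iff_continuousAt]
  intro x
  have h1 : ContinuousAt (theta m) (Real.exp x / Y) :=
    (Th.continuousOn_theta m).continuousAt (Ioi_mem_nhds (by positivity))
  exact ContinuousAt.comp (f := fun x => Real.exp x / Y) h1
    (Real.continuous_exp.div_const _).continuousAt

lemma Fw_eq (m : ℤ) {Y : ℕ} (hY : 3 ≤ Y) (h : ℝ → ℝ) :
    Fw Y h m = ∫ x, Ph m Y x * h x := by
  have hY0 : (0 : ℝ) < Y := by exact_mod_cast (by omega : 0 < Y)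
  have himg : (fun x : ℝ => Real.exp x / Y) '' univ = Ioi 0 := by
    ext u
    simp only [Set.mem_image, mem_univ, true_and, mem_Ioi]
    constructor
    · rintro ⟨x, rfl⟩
      positivity
    · intro hu
      exact ⟨Real.log (u * Y), by rw [Real.exp_log (by positivity)]; field_simp⟩
  have hd : ∀ x ∈ (univ : Set ℝ), HasDerivWithinAt (fun x : ℝ => Real.exp x / Y)
      (Real.exp x / Y) univ x :=
    fun x _ => ((Real.hasDerivAt_exp x).div_const _).hasDerivWithinAt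
  have hinj : InjOn (fun x : ℝ => Real.exp x / Y) univ := by
    intro a _ b _ hab
    have h' : Real.exp a / Y = Real.exp b / Y := hab
    rw [div_left_inj' hY0.ne'] at h'
    exact Real.exp_injective h'
  have h1 := integral_image_eq_integral_abs_deriv_smul MeasurableSet.univ hd hinj
    (fun u => theta m u * h (Real.log (u * Y)))
  rw [himg] at h1
  unfold Fw Fn P004.cfY
  rw [h1, Measure.restrict_univ]
  refine integral_congr_ae (Eventually.of_forall fun x => ?_)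
  simp only [smul_eq_mul]
  rw [abs_of_pos (by positivity), div_mul_cancel₀ _ hY0.ne', Real.log_exp]
  unfold Ph
  ring

lemma Fw_eq_Icc (m : ℤ) {Y : ℕ} (hY : 3 ≤ Y) {h : ℝ → ℝ} {c : ℝ}
    (hc : ∀ x, h x ≠ 0 → |x| ≤ c) : Fw Y h m = ∫ x in Icc (-c) c, Ph m Y x * h x := by
  rw [Fw_eq m hY]
  symm
  apply setIntegral_eq_integral_of_forall_compl_eq_zero
  intro x hx
  by_cases h0 : h x = 0
  · rw [h0, mul_zero]
  · exact absurd (abs_le.1 (hc x h0)) hx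

lemma Fw_const_mul (Y : ℕ) (a : ℝ) (h : ℝ → ℝ) (m : ℤ) :
    Fw Y (fun x => a * h x) m = a * Fw Y h m := by
  unfold Fw Fn P004.cfY
  rw [← integral_const_mul]
  congr 1
  funext u
  ring

/-- `StStrip` with a scaling factor -/
lemma strip_one (hS : StStrip) : ∃ (n : ℕ) (C : ℝ), 1 ≤ C ∧ ∀ (Y : ℕ) (h : ℝ → ℝ) (b : ℝ), 3 ≤ Y →
    0 < b → ContDiff ℝ n h → (∀ x, h x ≠ 0 → |x| ≤ 2 * Real.log Y ^ (1 / 100 : ℝ)) →
    (∀ i ≤ n, ∀ x, |iteratedDeriv i h x| ≤ b) →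
    ∑ m ∈ (sqZ Y).filter (fun m => Y < 2 * m.natAbs), (Fw Y h m) ^ 2 ≤
      C * b ^ 2 * Y * Real.log Y ^ (4 / 5 : ℝ) := by
  obtain ⟨n, C, hC, hh⟩ := hS
  refine ⟨n, C, hC, fun Y h b hY hb hsm hsupp hder => ?_⟩
  have h1 := hh Y (fun x => b⁻¹ * h x) hY (contDiff_const.mul hsm) (fun x hx => hsupp x (by
    intro h0; apply hx; simp only [h0, mul_zero])) (fun i hi x => by
      rw [iteratedDeriv_const_mul_field, abs_mul, abs_of_pos (inv_pos.2 hb)]
      calc b⁻¹ * |iteratedDeriv i h x| ≤ b⁻¹ * b := by gcongr; exact hder i hi x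
        _ = 1 := inv_mul_cancel₀ hb.ne')
  simp_rw [Fw_const_mul, mul_pow] at h1
  rw [← Finset.mul_sum] at h1
  have h2 : ∑ m ∈ (sqZ Y).filter (fun m => Y < 2 * m.natAbs), (Fw Y h m) ^ 2 =
      b ^ 2 * (b⁻¹ ^ 2 * ∑ m ∈ (sqZ Y).filter (fun m => Y < 2 * m.natAbs), (Fw Y h m) ^ 2) := by
    field_simp
  rw [h2]
  calc b ^ 2 * (b⁻¹ ^ 2 * ∑ m ∈ (sqZ Y).filter (fun m => Y < 2 * m.natAbs), (Fw Y h m) ^ 2)
      ≤ b ^ 2 * (C * Y * Real.log Y ^ (4 / 5 : ℝ)) := by gcongr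
    _ = _ := by ring

/-- **The strip.** -/
theorem strip_sum (hS : StStrip) : ∃ C : ℝ, 1 ≤ C ∧ ∀ (Y : ℕ) (R a : ℝ) (s : ℤ → ℝ) (T : Finset ℤ),
    3 ≤ Y → 1 ≤ R → 0 ≤ a → a ≤ R → R + a ≤ Real.log Y ^ (1 / 100 : ℝ) →
    T ⊆ (sqZ Y).filter (fun m => Y < 2 * m.natAbs) → (∀ m ∈ T, |s m| ≤ a) →
    ∑ m ∈ T, (Fw Y (ks R (s m)) m) ^ 2 ≤ C * R ^ 4 * Y * Real.log Y ^ (4 / 5 : ℝ) := by
  obtain ⟨n, C, hC, h⟩ := strip_one hS
  obtain ⟨C₁, hC₁, hk⟩ := ks_bound n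
  obtain ⟨C₂, hC₂, hd⟩ := dk_bound n
  refine ⟨2 * (C * C₁ ^ 2) + 8 * (C * C₂ ^ 2), by nlinarith [one_le_pow₀ hC₁ (n := 2)],
    fun Y R a s T hY hR ha haR hRa hT hs => ?_⟩
  have hR0 : 0 < R := by linarith
  have hY0 : (0 : ℝ) < Y := by exact_mod_cast (by omega : 0 < Y)
  have hL : 0 ≤ Real.log Y := Real.log_nonneg (by exact_mod_cast (by omega : 1 ≤ Y))
  set E := (Y : ℝ) * Real.log Y ^ (4 / 5 : ℝ) with hE
  have hE0 : 0 ≤ E := by positivity
  set c := 2 * R + 2 * a with hc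
  have hsuppk : ∀ t, |t| ≤ a → ∀ x, ks R t x ≠ 0 → |x| ≤ c := by
    intro t ht x hx
    obtain ⟨h1, h2⟩ := ks_supp hR0 hx
    obtain ⟨h3, h4⟩ := abs_le.1 ht
    rw [abs_le]; constructor <;> linarith
  have hsuppd : ∀ t, |t| ≤ a → ∀ x, dk R t x ≠ 0 → |x| ≤ c := by
    intro t ht x hx
    obtain ⟨h1, h2⟩ := dk_supp hR0 hx
    obtain ⟨h3, h4⟩ := abs_le.1 ht
    rw [abs_le]; constructor <;> linarith
  have hcL : c ≤ 2 * Real.log Y ^ (1 / 100 : ℝ) := by rw [hc]; linarith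
  have ha1 : |(-a)| ≤ a := by rw [abs_neg, abs_of_nonneg ha]
  -- the two second moments
  have b1 : ∑ m ∈ T, (Fw Y (ks R (-a)) m) ^ 2 ≤ C * (C₁ * R) ^ 2 * Y * Real.log Y ^ (4 / 5 : ℝ) := by
    refine (Finset.sum_le_sum_of_subset_of_nonneg hT fun _ _ _ => sq_nonneg _).trans ?_
    exact h Y _ (C₁ * R) hY (by positivity) (ks_smooth hR0 _ n)
      (fun x hx => (hsuppk _ ha1 x hx).trans hcL) (fun i hi x => hk R _ hR (ha1.trans haR) i hi x)
  have b2 : ∀ t ∈ Icc (-a) a, ∑ m ∈ T, (Fw Y (dk R t) m) ^ 2 ≤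
      C * C₂ ^ 2 * Y * Real.log Y ^ (4 / 5 : ℝ) := by
    intro t ht
    have ht1 : |t| ≤ a := abs_le.2 ht
    refine (Finset.sum_le_sum_of_subset_of_nonneg hT fun _ _ _ => sq_nonneg _).trans ?_
    exact h Y _ C₂ hY (by positivity) (dk_smooth _ n)
      (fun x hx => (hsuppd _ ht1 x hx).trans hcL) (fun i hi x => hd R _ hR (ht1.trans haR) i hi x)
  -- the pointwise inequality
  have h1 : ∀ m ∈ T, (Fw Y (ks R (s m)) m) ^ 2 ≤ 2 * (Fw Y (ks R (-a)) m) ^ 2 +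
      4 * a * ∫ t in (-a)..a, (Fw Y (dk R t) m) ^ 2 := by
    intro m hm
    obtain ⟨h3, h4⟩ := abs_le.1 (hs m hm)
    have h5 := sobolev (Ph_cont m hY) (K := fun s x => ks R s x) (D := fun s x => dk R s x)
      dk_cont (fun s => ks_cont R s) (fun s x => hasDerivAt_ks hR0 s x) c h3 h4
    rw [Fw_eq_Icc m hY (hsuppk _ (hs m hm)), Fw_eq_Icc m hY (hsuppk _ ha1)]
    have e : ∫ t in (-a)..a, (Fw Y (dk R t) m) ^ 2 =
        ∫ t in (-a)..a, (∫ x in Icc (-c) c, Ph m Y x * dk R t x) ^ 2 := by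
      apply intervalIntegral.integral_congr
      intro t ht
      rw [uIcc_of_le (by linarith)] at ht
      simp only
      rw [Fw_eq_Icc m hY (hsuppd t (abs_le.2 ht))]
    rw [e]
    exact h5
  have hcont : ∀ m : ℤ, ContinuousOn (fun t => (Fw Y (dk R t) m) ^ 2) (Icc (-a) a) := by
    intro m
    have h2 : Continuous (fun t => ∫ x in Icc (-c) c, Ph m Y x * dk R t x) :=
      continuous_parametric_integral_of_continuous (μ := (volume : Measure ℝ))
        (f := fun t x => Ph m Y x * dk R t x) (s := Icc (-c) c)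
        (((Ph_cont m hY).comp continuous_snd).mul dk_cont) isCompact_Icc
    refine (h2.pow 2).continuousOn.congr fun t ht => ?_
    rw [Fw_eq_Icc m hY (hsuppd t (abs_le.2 ht))]
    rfl
  have hint : ∀ m ∈ T, IntervalIntegrable (fun t => (Fw Y (dk R t) m) ^ 2) volume (-a) a := by
    intro m _
    apply ContinuousOn.intervalIntegrable
    rw [uIcc_of_le (by linarith)]
    exact hcont m
  have h2 : ∑ m ∈ T, ∫ t in (-a)..a, (Fw Y (dk R t) m) ^ 2 ≤
      2 * a * (C * C₂ ^ 2 * Y * Real.log Y ^ (4 / 5 : ℝ)) := by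
    rw [← intervalIntegral.integral_finsetSum hint]
    calc ∫ t in (-a)..a, ∑ m ∈ T, (Fw Y (dk R t) m) ^ 2
        ≤ ∫ _ in (-a)..a, C * C₂ ^ 2 * Y * Real.log Y ^ (4 / 5 : ℝ) := by
          apply intervalIntegral.integral_mono_on (by linarith)
          · apply ContinuousOn.intervalIntegrable
            rw [uIcc_of_le (by linarith)]
            exact continuousOn_finset_sum _ fun m _ => hcont m
          · exact continuous_const.intervalIntegrable _ _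
          · exact b2
      _ = _ := by rw [intervalIntegral.integral_const, smul_eq_mul]; ring
  calc ∑ m ∈ T, (Fw Y (ks R (s m)) m) ^ 2
      ≤ ∑ m ∈ T, (2 * (Fw Y (ks R (-a)) m) ^ 2 +
        4 * a * ∫ t in (-a)..a, (Fw Y (dk R t) m) ^ 2) := Finset.sum_le_sum h1
    _ = 2 * ∑ m ∈ T, (Fw Y (ks R (-a)) m) ^ 2 +
        4 * a * ∑ m ∈ T, ∫ t in (-a)..a, (Fw Y (dk R t) m) ^ 2 := by
        rw [Finset.sum_add_distrib, Finset.mul_sum, Finset.mul_sum]
    _ ≤ 2 * (C * (C₁ * R) ^ 2 * Y * Real.log Y ^ (4 / 5 : ℝ)) +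
        4 * a * (2 * a * (C * C₂ ^ 2 * Y * Real.log Y ^ (4 / 5 : ℝ))) := by gcongr
    _ = (2 * (C * C₁ ^ 2) * R ^ 2 + 8 * (C * C₂ ^ 2) * a ^ 2) * E := by rw [hE]; ring
    _ ≤ (2 * (C * C₁ ^ 2) * R ^ 4 + 8 * (C * C₂ ^ 2) * R ^ 4) * E := by
        have h6 : R ^ 2 ≤ R ^ 4 := pow_le_pow_right₀ hR (by norm_num)
        have h7 : a ^ 2 ≤ R ^ 4 := (pow_le_pow_left₀ ha haR 2).trans h6
        gcongr
    _ = _ := by rw [hE]; ring

end Fin
end P004E
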