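import Vale.Agent.P004E.H503.WinNum
import Vale.Agent.P004G.H1a

/-!
# P004E: one mollified window
-/

open Real MeasureTheory Set Filter
open scoped ENNReal Topology

namespace P004E
namespace Fin

open P004G

variable [Crv]

lemma sqZ_le_tsum {Y : ℕ} (hY : 1 ≤ Y) {f : ℤ → ℝ} (hf : ∀ k, 0 ≤ f k)
    (hs : Summable (fun k : ℤ => P004.H1.ah Y k * f k)) :
    ∑ m ∈ sqZ Y, f m ≤ 1 / P004.H1.c0 * ∑' k : ℤ, P004.H1.ah Y k * f k := by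
  have hc0 : 0 < P004.H1.c0 := P004.H1.c0_pos
  have hY0 : (0 : ℝ) < Y := by exact_mod_cast hY
  rw [one_div, inv_mul_eq_div, le_div_iff₀ hc0, Finset.sum_mul]
  refine (Finset.sum_le_sum fun m hm => ?_).trans
    (hs.sum_le_tsum (sqZ Y) fun k _ => mul_nonneg (P004.H1.ah_nonneg _ _) (hf k))
  rw [mul_comm]
  refine mul_le_mul_of_nonneg_right ?_ (hf m)
  rw [← P004G.H1.ah_natAbs]
  exact P004.H1.c0_le hY0 (by exact_mod_cast (mem_sqZ.1 hm).1)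

lemma Mh_mul (S : ℕ → Finset ℕ) (c : ℕ → ℕ → ℝ) {i₀ i₁ : ℕ} (h : i₀ ≤ i₁) (k : ℤ) :
    Mh S c 0 i₁ k = Mh S c 0 i₀ k * Mh S c i₀ i₁ k := by
  unfold Mh
  rw [Finset.prod_Ico_consecutive _ (Nat.zero_le _) h]

lemma zi_le {θ z : ℝ} (hθ : 0 ≤ θ) (hz : 0 < z) (hz1 : z ≤ 1) (i : ℕ) : zi θ z i ≤ z := by
  unfold zi
  calc z ^ ((1 + θ) ^ i : ℝ) ≤ z ^ (1 : ℝ) :=
        Real.rpow_le_rpow_of_exponent_ge hz hz1 (one_le_pow₀ (by linarith))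
    _ = z := Real.rpow_one z

/-- **one window** -/
theorem win_bound (hW : StWin) (hMr : StMr) {C₀ c₀ : ℝ} (hC₀ : 1 ≤ C₀) (hc₀ : 0 < c₀) :
    ∃ A : ℕ, ∀ y₀ θ η₁ : ℝ, 2 ≤ y₀ → 0 < θ → θ ≤ 1 / 1000 → 0 < η₁ → η₁ ≤ 1 / 10 →
    ((A : ℝ) + 1) * (η₁ + θ) ≤ 1 / 8 → ∃ (n : ℕ) (C z₀ : ℝ), 1 ≤ C ∧ 0 < z₀ ∧ z₀ ≤ 1 / 4 ∧
    ∀ z : ℝ, 0 < z → z ≤ z₀ → ∃ Y₀ : ℕ, ∀ (Y : ℕ) (S : ℕ → Finset ℕ) (c : ℕ → ℕ → ℝ), Y₀ ≤ Y →
    BlkOK C₀ c₀ (1 / 20) y₀ θ z (Real.log Y) S c → ∀ (w b : ℝ) (h : ℝ → ℝ),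
    Real.log Y ^ (1 / 200 : ℝ) ≤ w → w ≤ z ^ (1 - η₁) * Real.log Y → 0 ≤ b → ContDiff ℝ n h →
    (∀ x, h x ≠ 0 → w ≤ x ∧ x ≤ 4 * w) → (∀ k ≤ n, ∀ x, |iteratedDeriv k h x| ≤ b * w⁻¹ ^ k) →
    ∑ m ∈ sqZ Y, |Mh S c 0 (nb θ z (Real.log Y) + 1) m * Fw Y h m| ≤
      C * Y * b * z ^ (1 / 2 : ℝ) * (w / Real.log Y) ^ (-(7 / 8) : ℝ) := by
  obtain ⟨A, hA⟩ := hW C₀ c₀ (1 / 20) hC₀ hc₀ (by norm_num) (by norm_num)
  refine ⟨A, fun y₀ θ η₁ hy₀ hθ hθ1 hη₁ hη₁' hAθ => ?_⟩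
  obtain ⟨n, C₁, z₁, hC₁, hz₁, hwin⟩ := hA y₀ θ hy₀ hθ (by linarith)
  obtain ⟨C₂, z₂, hC₂, hz₂, hmr⟩ := hMr C₀ c₀ (1 / 20) hC₀ hc₀ (by norm_num) (by norm_num) y₀ θ hy₀ hθ
    (by linarith)
  have hcc : 0 < P004.H1.c0 := P004.H1.c0_pos
  set K : ℝ := 34 * 3 ^ A * (64 * C₀) ^ (2 * A + 4) with hK
  have hK0 : 0 < K := by positivity
  set D : ℝ := 1 / P004.H1.c0 * √(C₁ * 4 ^ n * C₂ * K) with hD
  refine ⟨n, max 1 D, min (min z₁ z₂) (1 / 4), le_max_left _ _, by positivity, min_le_right _ _,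
    fun z hz hzz => ?_⟩
  have hz1 : z ≤ z₁ := hzz.trans ((min_le_left _ _).trans (min_le_left _ _))
  have hz2 : z ≤ z₂ := hzz.trans ((min_le_left _ _).trans (min_le_right _ _))
  have hz4 : z ≤ 1 / 4 := hzz.trans (min_le_right _ _)
  obtain ⟨Y₁, hY₁⟩ := hwin z hz hz1 4 (by norm_num)
  obtain ⟨Y₂, hY₂⟩ := hmr z hz hz2
  -- `log Y` large
  have hlog : ∀ᶠ Y : ℕ in atTop, 64 * C₀ ≤ Real.log Y ^ (1 / 400 : ℝ) ∧ 1 ≤ Real.log Y := by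
    have h1 : Tendsto (fun Y : ℕ => Real.log Y) atTop atTop :=
      Real.tendsto_log_atTop.comp tendsto_natCast_atTop_atTop
    have h2 : Tendsto (fun Y : ℕ => Real.log Y ^ (1 / 400 : ℝ)) atTop atTop :=
      (tendsto_rpow_atTop (by norm_num)).comp h1
    exact (h2.eventually_ge_atTop _).and (h1.eventually_ge_atTop _)
  obtain ⟨Y₃, hY₃⟩ := eventually_atTop.1 hlog
  refine ⟨max (max Y₁ Y₂) (max Y₃ 3), fun Y S c hY hB w b h hw1 hw2 hb hsm hsupp hder => ?_⟩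
  have hYY1 : Y₁ ≤ Y := ((le_max_left _ _).trans (le_max_left _ _)).trans hY
  have hYY2 : Y₂ ≤ Y := ((le_max_right _ _).trans (le_max_left _ _)).trans hY
  have hYY3 : Y₃ ≤ Y := ((le_max_left _ _).trans (le_max_right _ _)).trans hY
  have hY3 : 3 ≤ Y := ((le_max_right _ _).trans (le_max_right _ _)).trans hY
  obtain ⟨hL1, hL2⟩ := hY₃ Y hYY3
  set L := Real.log Y with hLdef
  have hL0 : 0 < L := by linarith
  have hzη : z ^ (1 - η₁) ≤ 1 / 2 := by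
    calc z ^ (1 - η₁) ≤ (1 / 4 : ℝ) ^ (1 - η₁) := Real.rpow_le_rpow hz.le hz4 (by linarith)
      _ ≤ (1 / 4 : ℝ) ^ (1 / 2 : ℝ) :=
          Real.rpow_le_rpow_of_exponent_ge (by norm_num) (by norm_num) (by linarith)
      _ = 1 / 2 := by
          rw [show (1 / 4 : ℝ) = (1 / 2) ^ (2 : ℝ) by norm_num, ← Real.rpow_mul (by norm_num)]
          norm_num
  have hw0 : 0 < w := lt_of_lt_of_le (by positivity) hw1
  have hwL : w ≤ L / 2 := by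
    calc w ≤ z ^ (1 - η₁) * L := hw2
      _ ≤ 1 / 2 * L := by gcongr
      _ = L / 2 := by ring
  have hw64 : 64 * C₀ * L ^ (2 * θ) ≤ w := by
    calc 64 * C₀ * L ^ (2 * θ) ≤ L ^ (1 / 400 : ℝ) * L ^ (1 / 400 : ℝ) := by
          gcongr
          linarith
      _ = L ^ (1 / 200 : ℝ) := by rw [← Real.rpow_add hL0]; norm_num
      _ ≤ w := hw1
  obtain ⟨i₀, hi₀, hcond, hcase⟩ := exists_i0 hθ (by linarith) (by norm_num : (0 : ℝ) ≤ 1 / 20)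
    (by norm_num) hz (by linarith) hL2 hC₀ hw0 (by linarith) hw64
  have hzi := zi_pos (θ := θ) hz i₀
  have hzle := zi_le hθ.le hz (by linarith) i₀
  have h1 := hY₁ Y S c hYY1 hB i₀ w b h hi₀ hw1 (by linarith) hcond hb hsm
    (fun x hx => ⟨(hsupp x hx).1, (hsupp x hx).2, by linarith [(hsupp x hx).2]⟩) hder
  have h2 := hY₂ Y S c hYY2 hB i₀ (hi₀.trans (Nat.le_succ _))
  rw [if_pos hi₀] at h2
  set N := nb θ z L with hN
  set t := w / L with ht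
  have ht0 : 0 < t := by positivity
  -- the numerical inequality
  have hnum := num_ineq (A := A) (θ := θ) (η₁ := η₁) (z := z) (C₀ := C₀) (t := t)
    (y := zi θ z i₀) hθ hη₁ hη₁' hAθ hC₀ hz (by linarith) ht0
    (by rw [ht, div_le_iff₀ hL0]; exact hw2) hzi hzle (by
      rcases hcase with h0 | h0
      · left
        rw [h0, zi_zero] at hcond ⊢
        refine ⟨rfl, ?_⟩
        rw [ht, le_div_iff₀ hL0]
        refine le_trans ?_ hcond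
        have he : 1 ≤ Real.exp (1 / 20 * li θ z 0) := by
          apply Real.one_le_exp
          unfold li
          rw [zi_zero]
          have : 0 ≤ Real.log (1 / z) := Real.log_nonneg (by rw [le_div_iff₀ hz]; linarith)
          positivity
        calc z * L = 1 * 1 * (L * z) * 1 := by ring
          _ ≤ 64 * C₀ * (L * z) * Real.exp (1 / 20 * li θ z 0) := by gcongr; norm_num
      · right
        exact h0)
  -- from sums over all integers to sums over squarefree integers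
  have s1 := sqZ_le_tsum (by omega : 1 ≤ Y) (fun k => sq_nonneg (Mh S c i₀ (N + 1) k * Fw Y h k)) h1.1
  have s2 := sqZ_le_tsum (by omega : 1 ≤ Y) (fun k => sq_nonneg (Mh S c 0 i₀ k)) h2.1
  have hXe : ∑ m ∈ sqZ Y, |Mh S c 0 (N + 1) m * Fw Y h m| =
      ∑ m ∈ sqZ Y, |Mh S c 0 i₀ m| * |Mh S c i₀ (N + 1) m * Fw Y h m| := by
    refine Finset.sum_congr rfl fun m _ => ?_
    rw [Mh_mul S c (by omega : i₀ ≤ N + 1), mul_assoc, abs_mul]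
  rw [hXe]
  have hcs := Real.sum_mul_le_sqrt_mul_sqrt (sqZ Y) (fun m => |Mh S c 0 i₀ m|)
    (fun m => |Mh S c i₀ (N + 1) m * Fw Y h m|)
  simp only [sq_abs] at hcs
  refine hcs.trans ?_
  have hY0 : (0 : ℝ) ≤ Y := Nat.cast_nonneg Y
  have e1 : w / (L * zi θ z i₀) = t / zi θ z i₀ := by rw [ht, div_div]
  have e2 : 3 * L / w = 3 / t := by rw [ht]; field_simp
  rw [e1, e2] at h1
  set X₁ := (t / zi θ z i₀) ^ A * (3 / t) ^ ((A : ℝ) * θ) * (1 + Real.log (3 / t)) with hX₁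
  set X₂ := (z / zi θ z i₀) ^ (1 + 2 * (1 / 20 : ℝ)) with hX₂
  have hX₂0 : 0 ≤ X₂ := by positivity
  have b1 : ∑ m ∈ sqZ Y, (Mh S c i₀ (N + 1) m * Fw Y h m) ^ 2 ≤
      1 / P004.H1.c0 * (C₁ * 4 ^ n * Y * b ^ 2 * X₁) := by
    refine s1.trans ?_
    refine mul_le_mul_of_nonneg_left ?_ (by positivity)
    refine h1.2.trans (le_of_eq ?_)
    rw [hX₁]; ring
  have b2 : ∑ m ∈ sqZ Y, Mh S c 0 i₀ m ^ 2 ≤ 1 / P004.H1.c0 * (C₂ * Y * X₂) := by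
    refine s2.trans ?_
    exact mul_le_mul_of_nonneg_left h2.2 (by positivity)
  calc √(∑ m ∈ sqZ Y, Mh S c 0 i₀ m ^ 2) * √(∑ m ∈ sqZ Y, (Mh S c i₀ (N + 1) m * Fw Y h m) ^ 2)
      ≤ √(1 / P004.H1.c0 * (C₂ * Y * X₂)) * √(1 / P004.H1.c0 * (C₁ * 4 ^ n * Y * b ^ 2 * X₁)) := by
        gcongr
    _ = √((1 / P004.H1.c0) ^ 2 * (Y * b) ^ 2 * (C₁ * 4 ^ n * C₂) * (X₁ * X₂)) := by
        rw [← Real.sqrt_mul (by positivity)]
        congr 1; ring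
    _ ≤ √((1 / P004.H1.c0) ^ 2 * (Y * b) ^ 2 * (C₁ * 4 ^ n * C₂) *
          (K * z * t ^ (-(7 / 4) : ℝ))) := by
        apply Real.sqrt_le_sqrt
        exact mul_le_mul_of_nonneg_left hnum (by positivity)
    _ = √((1 / P004.H1.c0 * (Y * b)) ^ 2 * (C₁ * 4 ^ n * C₂ * K) *
          (z ^ (1 / 2 : ℝ) * t ^ (-(7 / 8) : ℝ)) ^ 2) := by
        congr 1
        rw [mul_pow (z ^ (1 / 2 : ℝ)), ← Real.rpow_natCast (z ^ (1 / 2 : ℝ)) 2,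
          ← Real.rpow_mul hz.le, ← Real.rpow_natCast (t ^ (-(7 / 8) : ℝ)) 2,
          ← Real.rpow_mul ht0.le]
        norm_num
        ring
    _ = D * Y * b * z ^ (1 / 2 : ℝ) * t ^ (-(7 / 8) : ℝ) := by
        rw [Real.sqrt_mul (by positivity), Real.sqrt_mul (by positivity),
          Real.sqrt_sq (by positivity), Real.sqrt_sq (by positivity), hD]
        ring
    _ ≤ max 1 D * Y * b * z ^ (1 / 2 : ℝ) * t ^ (-(7 / 8) : ℝ) := by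
        gcongr
        exact le_max_right _ _

end Fin
end P004E
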