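import Vale.Agent.P004E.H503.Tail
import Vale.Agent.P004E.H503.WinSum

/-!
# P004E: the contribution of the twists with `Van m 2`
-/

open Real MeasureTheory Set Filter
open scoped ENNReal Topology ContDiff

namespace P004E
namespace Fin

open P004G P004G.Asm

variable [Crv]

/-- Cauchy-Schwarz with two different ranges -/
lemma cs_two {Y : ℕ} {T : Finset ℤ} (hT : T ⊆ sqZ Y) (f g : ℤ → ℝ) {A B : ℝ}
    (hA : ∑ m ∈ sqZ Y, f m ^ 2 ≤ A) (hB : ∑ m ∈ T, g m ^ 2 ≤ B) :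
    ∑ m ∈ T, |f m| * |g m| ≤ √A * √B := by
  have h1 := Real.sum_mul_le_sqrt_mul_sqrt T (fun m => |f m|) (fun m => |g m|)
  simp only [sq_abs] at h1
  refine h1.trans (mul_le_mul ?_ (Real.sqrt_le_sqrt hB) (Real.sqrt_nonneg _) (Real.sqrt_nonneg _))
  exact Real.sqrt_le_sqrt ((Finset.sum_le_sum_of_subset_of_nonneg hT
    fun _ _ _ => sq_nonneg _).trans hA)

lemma cs_one {Y : ℕ} {T : Finset ℤ} (hT : T ⊆ sqZ Y) (f : ℤ → ℝ) {A : ℝ}
    (hA : ∑ m ∈ sqZ Y, f m ^ 2 ≤ A) : ∑ m ∈ T, |f m| ≤ √A * √(2 * Y) := by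
  have h := cs_two hT f (fun _ => 1) hA (B := 2 * Y) (by
    simp only [one_pow, Finset.sum_const, nsmul_eq_mul, mul_one]
    exact (Nat.cast_le.2 (Finset.card_le_card hT)).trans (card_sqZ Y))
  simpa using h

/-- **The twists with `Van m 2`** -/
theorem bad_le {Y n J : ℕ} {ε ζ R a Cw Cn Cr Cm Cs : ℝ} {q : ℤ → ℝ} {T : Finset ℤ} {M : ℤ → ℝ}
    (hY : 3 ≤ Y) (hL1 : 1 ≤ Real.log Y) (hε : 0 < ε) (hε1 : ε ≤ 3 / 4) (hζ : 0 ≤ ζ)
    (hR1 : 1 ≤ R) (hR2 : R ≤ Real.log Y ^ (1 / 100 : ℝ) / 2)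
    (hR3 : Real.log Y ^ (1 / 200 : ℝ) ≤ R)
    (hJ : 2 ^ J * R = ε * Real.log Y) (ha : 0 ≤ a) (haR : a ≤ R) (hCw : 0 ≤ Cw) (hCn : 0 ≤ Cn) (hCr : 0 ≤ Cr)
    (hCm : 0 ≤ Cm) (hCs : 0 ≤ Cs)
    (hT : T ⊆ (sqZ Y).filter (fun m => Y < 2 * m.natAbs))
    (hfe : ∀ m ∈ T, FE m (q m) ∧ |Real.log (√(q m) / Y)| ≤ a ∧ Van m 2)
    (hwin : ∀ (w b : ℝ) (h : ℝ → ℝ), Real.log Y ^ (1 / 200 : ℝ) ≤ w → w ≤ ε * Real.log Y → 0 ≤ b →
      ContDiff ℝ n h → (∀ x, h x ≠ 0 → w ≤ x ∧ x ≤ 4 * w) →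
      (∀ k ≤ n, ∀ x, |iteratedDeriv k h x| ≤ b * w⁻¹ ^ k) →
      ∑ m ∈ sqZ Y, |M m * Fw Y h m| ≤ Cw * Y * b * ζ * (w / Real.log Y) ^ (-(7 / 8) : ℝ))
    (hhx : ∀ w L : ℝ, 0 < w → 0 < L → ∀ i ≤ n, ∀ x, |iteratedDeriv i (hx w L) x| ≤
      Cn * (w / L) * w⁻¹ ^ i)
    (hh1 : ∀ w : ℝ, 0 < w → ∀ i ≤ n, ∀ x, |iteratedDeriv i (h1 w) x| ≤ Cn * w⁻¹ ^ i)
    (hM : ∑ m ∈ sqZ Y, M m ^ 2 ≤ Cr * Y * Real.log Y ^ (28 / 25 : ℝ))
    (hm : ∑ m ∈ sqZ Y, (M m * Fw Y (hm1 ε Y) m) ^ 2 ≤ Cm * Y)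
    (hstrip : ∑ m ∈ T, (Fw Y (ks R (Real.log (√(q m) / Y))) m) ^ 2 ≤
      Cs * R ^ 4 * Y * Real.log Y ^ (4 / 5 : ℝ)) :
    |∑ m ∈ T, M m * Fw Y (hmain ε Y) m| ≤ 12 * (Cw * Cn) * ζ * Y + Y * (
      √(Cr * Cs) * Real.log Y ^ (-(1 / 50) : ℝ) + 4 * a * (Cw * Cn * ζ) *
        Real.log Y ^ (-(1 / 8) : ℝ) + a * √(2 * Cm) * (Real.log Y)⁻¹ +
      √(2 * Cr) * (Th.C0 * (1 + a)) * ((Y : ℝ) ^ 2 * Real.exp (-√(Y : ℝ)))) := by
  have hY0 : (0 : ℝ) < Y := by exact_mod_cast (by omega : 0 < Y)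
  have hY1 : (1 : ℝ) ≤ Y := by exact_mod_cast (by omega : 1 ≤ Y)
  have hTs : T ⊆ sqZ Y := hT.trans (Finset.filter_subset _ _)
  set L := Real.log Y with hL
  have hL0 : 0 < L := by linarith
  have hR0 : 0 < R := by linarith
  have hC0 := Th.C0_nonneg
  set s : ℤ → ℝ := fun m => Real.log (√(q m) / Y) with hs
  -- pointwise identity
  have hpt : ∀ m ∈ T, |M m * Fw Y (hmain ε Y) m| ≤
      1 / (2 * L) * (|M m| * |Fw Y (ks R (s m)) m|) +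
        ∑ i ∈ Finset.range J, (|M m * Fw Y (hx (2 ^ i * R) L) m| +
          a / L * |M m * Fw Y (h1 (2 ^ i * R)) m|) +
        a / L * |M m * Fw Y (hm1 ε Y) m| +
        |M m| * (Th.C0 * (1 + a) * Y * Real.exp (-√(Y : ℝ))) := by
    intro m hmT
    obtain ⟨h1', h2', h3'⟩ := hfe m hmT
    have hsR : -Real.log (√(q m) / Y) ≤ R := by
      have := (abs_le.1 h2').1
      linarith
    have hid := van_windows h1' hY hR0 hsR h3' hε hε1 hJ
    have htl := ht_le m hY h2'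
    rw [← hL] at hid
    rw [hid]
    have e0 : ∀ x : ℝ, |x * -(1 / (2 * L) * Fw Y (ks R (s m)) m +
        ∑ i ∈ Finset.range J, (Fw Y (hx (2 ^ i * R) L) m +
          s m / L * Fw Y (h1 (2 ^ i * R)) m) +
        s m / L * Fw Y (hm1 ε Y) m + Fw Y (ht Y (s m)) m)| ≤
      |1 / (2 * L) * (x * Fw Y (ks R (s m)) m)| +
        |∑ i ∈ Finset.range J, (x * Fw Y (hx (2 ^ i * R) L) m +
          s m / L * (x * Fw Y (h1 (2 ^ i * R)) m))| +
        |s m / L * (x * Fw Y (hm1 ε Y) m)| + |x * Fw Y (ht Y (s m)) m| := by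
      intro x
      have e1 : x * -(1 / (2 * L) * Fw Y (ks R (s m)) m +
        ∑ i ∈ Finset.range J, (Fw Y (hx (2 ^ i * R) L) m +
          s m / L * Fw Y (h1 (2 ^ i * R)) m) +
        s m / L * Fw Y (hm1 ε Y) m + Fw Y (ht Y (s m)) m) =
        -(1 / (2 * L) * (x * Fw Y (ks R (s m)) m) +
        ∑ i ∈ Finset.range J, (x * Fw Y (hx (2 ^ i * R) L) m +
          s m / L * (x * Fw Y (h1 (2 ^ i * R)) m)) +
        s m / L * (x * Fw Y (hm1 ε Y) m) + x * Fw Y (ht Y (s m)) m) := by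
        have e2 : ∑ i ∈ Finset.range J, (x * Fw Y (hx (2 ^ i * R) L) m +
          s m / L * (x * Fw Y (h1 (2 ^ i * R)) m)) = x * ∑ i ∈ Finset.range J,
            (Fw Y (hx (2 ^ i * R) L) m + s m / L * Fw Y (h1 (2 ^ i * R)) m) := by
          rw [Finset.mul_sum]
          exact Finset.sum_congr rfl fun i _ => by ring
        rw [e2]
        ring
      rw [e1, abs_neg]
      refine (abs_add_le _ _).trans (add_le_add ?_ le_rfl)
      refine (abs_add_le _ _).trans (add_le_add ?_ le_rfl)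
      exact abs_add_le _ _
    refine (e0 (M m)).trans ?_
    have hsa : |s m / L| ≤ a / L := by
      rw [abs_div, abs_of_pos hL0]
      gcongr
    refine add_le_add (add_le_add (add_le_add ?_ ?_) ?_) ?_
    · rw [abs_mul, abs_mul, abs_of_pos (by positivity)]
    · refine (Finset.abs_sum_le_sum_abs _ _).trans (Finset.sum_le_sum fun i _ => ?_)
      refine (abs_add_le _ _).trans (add_le_add le_rfl ?_)
      rw [abs_mul]
      gcongr
    · rw [abs_mul]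
      gcongr
    · rw [abs_mul]
      gcongr
  -- the sums
  have hsub : ∀ f : ℤ → ℝ, ∑ m ∈ T, |f m| ≤ ∑ m ∈ sqZ Y, |f m| := fun f =>
    Finset.sum_le_sum_of_subset_of_nonneg hTs fun _ _ _ => abs_nonneg _
  have hwi : ∀ i < J, L ^ (1 / 200 : ℝ) ≤ 2 ^ i * R ∧ 2 ^ i * R ≤ ε * L := by
    intro i hi
    constructor
    · calc L ^ (1 / 200 : ℝ) ≤ R := hR3
        _ = 1 * R := (one_mul R).symm
        _ ≤ 2 ^ i * R := by gcongr; exact one_le_pow₀ (by norm_num)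
    · rw [← hJ]
      gcongr
      · norm_num
  have b1 : ∑ m ∈ T, |M m| * |Fw Y (ks R (s m)) m| ≤ 2 * L * (Y * (√(Cr * Cs) *
      L ^ (-(1 / 50) : ℝ))) := by
    refine (cs_two hTs M (fun m => Fw Y (ks R (s m)) m) hM hstrip).trans ?_
    rw [← Real.sqrt_mul (by positivity)]
    have e1 : Cr * Y * L ^ (28 / 25 : ℝ) * (Cs * R ^ 4 * Y * L ^ (4 / 5 : ℝ)) ≤
        (Cr * Cs) * (Y * L ^ (49 / 50 : ℝ)) ^ 2 := by
      have hR4 : R ^ 4 ≤ L ^ (1 / 25 : ℝ) := by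
        calc R ^ 4 ≤ (L ^ (1 / 100 : ℝ)) ^ 4 := by
              gcongr
              have : 0 ≤ L ^ (1 / 100 : ℝ) := by positivity
              linarith
          _ = L ^ (1 / 25 : ℝ) := by
              rw [← Real.rpow_natCast, ← Real.rpow_mul hL0.le]; norm_num
      have hLL : L ^ (28 / 25 : ℝ) * (L ^ (1 / 25 : ℝ) * L ^ (4 / 5 : ℝ)) =
          (L ^ (49 / 50 : ℝ)) ^ 2 := by
        rw [← Real.rpow_add hL0, ← Real.rpow_add hL0, ← Real.rpow_natCast, ← Real.rpow_mul hL0.le]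
        norm_num
      calc Cr * Y * L ^ (28 / 25 : ℝ) * (Cs * R ^ 4 * Y * L ^ (4 / 5 : ℝ))
          ≤ Cr * Y * L ^ (28 / 25 : ℝ) * (Cs * L ^ (1 / 25 : ℝ) * Y * L ^ (4 / 5 : ℝ)) := by gcongr
        _ = (Cr * Cs) * Y ^ 2 * (L ^ (28 / 25 : ℝ) * (L ^ (1 / 25 : ℝ) * L ^ (4 / 5 : ℝ))) := by
            ring
        _ = _ := by rw [hLL]; ring
    refine (Real.sqrt_le_sqrt e1).trans ?_
    rw [Real.sqrt_mul (by positivity), Real.sqrt_sq (by positivity)]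
    have e2 : L ^ (49 / 50 : ℝ) = L * L ^ (-(1 / 50) : ℝ) := by
      nth_rewrite 2 [← Real.rpow_one L]
      rw [← Real.rpow_add hL0]
      norm_num
    rw [e2]
    have : 0 ≤ √(Cr * Cs) * (Y * (L * L ^ (-(1 / 50) : ℝ))) := by positivity
    nlinarith
  have b2 : ∑ i ∈ Finset.range J, ∑ m ∈ T, |M m * Fw Y (hx (2 ^ i * R) L) m| ≤
      12 * (Cw * Cn) * ζ * Y := by
    have h1 : ∀ i ∈ Finset.range J, ∑ m ∈ T, |M m * Fw Y (hx (2 ^ i * R) L) m| ≤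
        (Cw * Cn) * ζ * Y * (2 ^ i * (R / L)) ^ (1 / 8 : ℝ) := by
      intro i hi
      obtain ⟨h2, h3⟩ := hwi i (Finset.mem_range.1 hi)
      have hw0 : 0 < (2 : ℝ) ^ i * R := by positivity
      have h4 := hwin (2 ^ i * R) (Cn * (2 ^ i * R / L)) (hx (2 ^ i * R) L) h2 h3 (by positivity)
        (hx_smooth _ _ _) (fun x hx0 => hx_supp hw0 hx0)
        (fun k hk x => hhx _ _ hw0 hL0 k hk x)
      refine (hsub _).trans (h4.trans (le_of_eq ?_))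
      have e3 : (2 ^ i * R / L) * (2 ^ i * R / L) ^ (-(7 / 8) : ℝ) =
          (2 ^ i * (R / L)) ^ (1 / 8 : ℝ) := by
        rw [← mul_div_assoc]
        nth_rewrite 1 [← Real.rpow_one (2 ^ i * R / L)]
        rw [← Real.rpow_add (by positivity)]
        norm_num
      rw [← e3]
      ring
    refine (Finset.sum_le_sum h1).trans ?_
    rw [← Finset.mul_sum]
    have h5 := sum_up (T := R / L) (J := J) (e := ε) (by positivity) (by
      rw [← mul_div_assoc, hJ]; field_simp) (by linarith)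
    calc Cw * Cn * ζ * Y * ∑ i ∈ Finset.range J, (2 ^ i * (R / L)) ^ (1 / 8 : ℝ)
        ≤ Cw * Cn * ζ * Y * 12 := by gcongr
      _ = _ := by ring
  have b3 : ∑ i ∈ Finset.range J, ∑ m ∈ T, |M m * Fw Y (h1 (2 ^ i * R)) m| ≤
      Cw * Cn * ζ * Y * (4 * L ^ (7 / 8 : ℝ)) := by
    have h1' : ∀ i ∈ Finset.range J, ∑ m ∈ T, |M m * Fw Y (h1 (2 ^ i * R)) m| ≤
        (Cw * Cn) * ζ * Y * (2 ^ i * R / L) ^ (-(7 / 8) : ℝ) := by
      intro i hi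
      obtain ⟨h2, h3⟩ := hwi i (Finset.mem_range.1 hi)
      have hw0 : 0 < (2 : ℝ) ^ i * R := by positivity
      have h4 := hwin (2 ^ i * R) Cn (h1 (2 ^ i * R)) h2 h3 hCn
        (h1_smooth _ _) (fun x hx0 => h1_supp hw0 hx0)
        (fun k hk x => hh1 _ hw0 k hk x)
      refine (hsub _).trans (h4.trans (le_of_eq ?_))
      ring
    refine (Finset.sum_le_sum h1').trans ?_
    rw [← Finset.mul_sum]
    have h5 := sum_down (L := L) (R := R) hL0 hR1 J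
    gcongr
  have b4 : ∑ m ∈ T, |M m * Fw Y (hm1 ε Y) m| ≤ √(2 * Cm) * Y := by
    refine (cs_one hTs _ hm).trans ?_
    rw [← Real.sqrt_mul (by positivity)]
    have : Cm * Y * (2 * Y) = (2 * Cm) * (Y : ℝ) ^ 2 := by ring
    rw [this, Real.sqrt_mul (by positivity), Real.sqrt_sq hY0.le]
  have b5 : ∑ m ∈ T, |M m| ≤ √(2 * Cr) * (Y * Y) := by
    refine (cs_one hTs _ hM).trans ?_
    rw [← Real.sqrt_mul (by positivity)]
    have hLY : L ^ (28 / 25 : ℝ) ≤ (Y : ℝ) ^ 2 := by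
      have h2 : L ≤ Y := (Real.log_le_sub_one_of_pos hY0).trans (by linarith)
      calc L ^ (28 / 25 : ℝ) ≤ L ^ (2 : ℝ) :=
            Real.rpow_le_rpow_of_exponent_le hL1 (by norm_num)
        _ = L ^ 2 := by rw [← Real.rpow_natCast]; norm_num
        _ ≤ _ := by gcongr
    have : Cr * Y * L ^ (28 / 25 : ℝ) * (2 * Y) ≤ (2 * Cr) * ((Y : ℝ) * Y) ^ 2 := by
      calc Cr * Y * L ^ (28 / 25 : ℝ) * (2 * Y) ≤ Cr * Y * (Y : ℝ) ^ 2 * (2 * Y) := by gcongr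
        _ = _ := by ring
    refine (Real.sqrt_le_sqrt this).trans ?_
    rw [Real.sqrt_mul (by positivity), Real.sqrt_sq (by positivity)]
  -- conclusion
  calc |∑ m ∈ T, M m * Fw Y (hmain ε Y) m| ≤ ∑ m ∈ T, |M m * Fw Y (hmain ε Y) m| :=
        Finset.abs_sum_le_sum_abs _ _
    _ ≤ ∑ m ∈ T, (1 / (2 * L) * (|M m| * |Fw Y (ks R (s m)) m|) +
        ∑ i ∈ Finset.range J, (|M m * Fw Y (hx (2 ^ i * R) L) m| +
          a / L * |M m * Fw Y (h1 (2 ^ i * R)) m|) +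
        a / L * |M m * Fw Y (hm1 ε Y) m| +
        |M m| * (Th.C0 * (1 + a) * Y * Real.exp (-√(Y : ℝ)))) := Finset.sum_le_sum hpt
    _ = 1 / (2 * L) * ∑ m ∈ T, |M m| * |Fw Y (ks R (s m)) m| +
        (∑ i ∈ Finset.range J, ∑ m ∈ T, |M m * Fw Y (hx (2 ^ i * R) L) m| +
          a / L * ∑ i ∈ Finset.range J, ∑ m ∈ T, |M m * Fw Y (h1 (2 ^ i * R)) m|) +
        a / L * ∑ m ∈ T, |M m * Fw Y (hm1 ε Y) m| +
        (∑ m ∈ T, |M m|) * (Th.C0 * (1 + a) * Y * Real.exp (-√(Y : ℝ))) := by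
        rw [Finset.sum_add_distrib, Finset.sum_add_distrib, Finset.sum_add_distrib,
          ← Finset.mul_sum, ← Finset.mul_sum, ← Finset.sum_mul, Finset.sum_comm]
        congr 3
        simp_rw [Finset.sum_add_distrib, Finset.mul_sum]
    _ ≤ 1 / (2 * L) * (2 * L * (Y * (√(Cr * Cs) * L ^ (-(1 / 50) : ℝ)))) +
        (12 * (Cw * Cn) * ζ * Y + a / L * (Cw * Cn * ζ * Y * (4 * L ^ (7 / 8 : ℝ)))) +
        a / L * (√(2 * Cm) * Y) +
        (√(2 * Cr) * (Y * Y)) * (Th.C0 * (1 + a) * Y * Real.exp (-√(Y : ℝ))) := by gcongr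
    _ = _ := by
        have e4 : L⁻¹ * L ^ (7 / 8 : ℝ) = L ^ (-(1 / 8) : ℝ) := by
          rw [← Real.rpow_neg_one, ← Real.rpow_add hL0]
          norm_num
        rw [← e4]
        field_simp
        ring

end Fin
end P004E
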