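import Vale.Agent.P004E.Blk
import Vale.Agent.P004G.H503.AsmB

/-!
# P004E: the identity for a twist with root number `-1` and `Van m 2`
-/

open Real MeasureTheory Set Filter
open scoped ENNReal Topology

namespace P004E
namespace Fin

open P004G P004G.Asm
open P004.Asm (ηf_nonneg ηf_le_one ηf_zero ηf_one ηf_cont)

variable [Crv]

/-- the pure functional equation with root number `-1` -/
def FE (m : ℤ) (q : ℝ) : Prop :=
  0 < q ∧ ∀ u : ℝ, 0 < u → theta m u = -1 / (q * u ^ 2) * theta m (1 / (q * u))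

/-- reflection `x ↦ -2s-x` -/
noncomputable def rf (s : ℝ) (f : ℝ → ℝ) (x : ℝ) : ℝ := f (-2 * s - x)

/-- change of variables `u = 1/(q v)` -/
lemma integral_inv_comp {q : ℝ} (hq : 0 < q) (g : ℝ → ℝ) :
    ∫ v in Ioi (0 : ℝ), g (1 / (q * v)) * (1 / (q * v ^ 2)) = ∫ u in Ioi (0 : ℝ), g u := by
  have himg : (fun v : ℝ => 1 / (q * v)) '' Ioi 0 = Ioi 0 := by
    ext u
    simp only [Set.mem_image, mem_Ioi]
    constructor
    · rintro ⟨v, hv, rfl⟩
      positivity
    · intro hu
      exact ⟨1 / (q * u), by positivity, by field_simp⟩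
  have hd : ∀ v ∈ Ioi (0 : ℝ), HasDerivWithinAt (fun v : ℝ => 1 / (q * v)) (-(1 / (q * v ^ 2)))
      (Ioi 0) v := by
    intro v hv
    have hv0 : v ≠ 0 := (mem_Ioi.1 hv).ne'
    have h1 : HasDerivAt (fun v : ℝ => q * v) q v := by
      simpa using (hasDerivAt_id v).const_mul q
    have h2 := h1.inv (mul_ne_zero hq.ne' hv0)
    have h3 : HasDerivAt (fun v : ℝ => 1 / (q * v)) (-(1 / (q * v ^ 2))) v := by
      have e1 : (fun v : ℝ => 1 / (q * v)) = (fun v : ℝ => q * v)⁻¹ := by
        funext v; simp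
      have e2 : -(1 / (q * v ^ 2)) = -q / (q * v) ^ 2 := by
        rw [mul_pow]; field_simp
      rw [e1, e2]
      exact h2
    exact h3.hasDerivWithinAt
  have hinj : InjOn (fun v : ℝ => 1 / (q * v)) (Ioi 0) := by
    intro a ha b hb h
    have ha0 : (0 : ℝ) < a := ha
    have hb0 : (0 : ℝ) < b := hb
    have h' : 1 / (q * a) = 1 / (q * b) := h
    field_simp at h'
    linarith
  have h := integral_image_eq_integral_abs_deriv_smul measurableSet_Ioi hd hinj g
  rw [himg] at h
  rw [h]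
  refine setIntegral_congr_fun measurableSet_Ioi fun v hv => ?_
  have hv0 : (0 : ℝ) < v := hv
  simp only [smul_eq_mul]
  rw [abs_neg, abs_of_pos (by positivity)]
  ring

lemma integrable_inv_comp {q : ℝ} (hq : 0 < q) {g : ℝ → ℝ}
    (hg : IntegrableOn g (Ioi 0)) :
    IntegrableOn (fun v : ℝ => g (1 / (q * v)) * (1 / (q * v ^ 2))) (Ioi 0) := by
  have himg : (fun v : ℝ => 1 / (q * v)) '' Ioi 0 = Ioi 0 := by
    ext u
    simp only [Set.mem_image, mem_Ioi]
    constructor
    · rintro ⟨v, hv, rfl⟩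
      positivity
    · intro hu
      exact ⟨1 / (q * u), by positivity, by field_simp⟩
  have hd : ∀ v ∈ Ioi (0 : ℝ), HasDerivWithinAt (fun v : ℝ => 1 / (q * v)) (-(1 / (q * v ^ 2)))
      (Ioi 0) v := by
    intro v hv
    have hv0 : v ≠ 0 := (mem_Ioi.1 hv).ne'
    have h1 : HasDerivAt (fun v : ℝ => q * v) q v := by
      simpa using (hasDerivAt_id v).const_mul q
    have h2 := h1.inv (mul_ne_zero hq.ne' hv0)
    have h3 : HasDerivAt (fun v : ℝ => 1 / (q * v)) (-(1 / (q * v ^ 2))) v := by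
      have e1 : (fun v : ℝ => 1 / (q * v)) = (fun v : ℝ => q * v)⁻¹ := by
        funext v; simp
      have e2 : -(1 / (q * v ^ 2)) = -q / (q * v) ^ 2 := by
        rw [mul_pow]; field_simp
      rw [e1, e2]
      exact h2
    exact h3.hasDerivWithinAt
  have hinj : InjOn (fun v : ℝ => 1 / (q * v)) (Ioi 0) := by
    intro a ha b hb h
    have ha0 : (0 : ℝ) < a := ha
    have hb0 : (0 : ℝ) < b := hb
    have h' : 1 / (q * a) = 1 / (q * b) := h
    field_simp at h'
    linarith
  have h := (integrableOn_image_iff_integrableOn_abs_deriv_smul measurableSet_Ioi hd hinj g).1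
    (by rw [himg]; exact hg)
  refine h.congr_fun (fun v hv => ?_) measurableSet_Ioi
  have hv0 : (0 : ℝ) < v := hv
  simp only [smul_eq_mul]
  rw [abs_neg, abs_of_pos (by positivity)]
  ring

lemma refl_point {m : ℤ} {q : ℝ} (h : FE m q) {Y : ℕ} (hY : 3 ≤ Y) (f : ℝ → ℝ) {v : ℝ}
    (hv : 0 < v) : theta m (1 / (q * v)) * f (Real.log (1 / (q * v) * Y)) * (1 / (q * v ^ 2)) =
      -(theta m v * rf (Real.log (√q / Y)) f (Real.log (v * Y))) := by
  obtain ⟨hq, hfe⟩ := h
  have hY0 : (0 : ℝ) < Y := by exact_mod_cast (by omega : 0 < Y)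
  have h1 : Real.log (1 / (q * v) * Y) = -2 * Real.log (√q / Y) - Real.log (v * Y) := by
    rw [Real.log_mul (by positivity) (by positivity), Real.log_div (by norm_num) (by positivity),
      Real.log_mul hq.ne' hv.ne', Real.log_div (by positivity) (by positivity),
      Real.log_mul hv.ne' hY0.ne', Real.log_sqrt hq.le, Real.log_one]
    ring
  have h2 := hfe v hv
  unfold rf
  rw [h1, h2]
  field_simp

/-- **Reflection.** -/
lemma Fw_rf {m : ℤ} {q : ℝ} (h : FE m q) {Y : ℕ} (hY : 3 ≤ Y) (f : ℝ → ℝ) :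
    Fw Y (rf (Real.log (√q / Y)) f) m = - Fw Y f m := by
  unfold Fw Fn P004.cfY
  rw [← integral_inv_comp h.1 (fun u => theta m u * f (Real.log (u * Y))), ← integral_neg]
  refine setIntegral_congr_fun measurableSet_Ioi fun v hv => ?_
  change _ = -(theta m (1 / (q * v)) * f (Real.log (1 / (q * v) * Y)) * (1 / (q * v ^ 2)))
  rw [refl_point h hY f hv, neg_neg]

lemma int_rf {m : ℤ} {q : ℝ} (h : FE m q) {Y : ℕ} (hY : 3 ≤ Y) {f : ℝ → ℝ}
    (hf : IntegrableOn (fun u => theta m u * f (Real.log (u * Y))) (Ioi 0)) :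
    IntegrableOn (fun u => theta m u * rf (Real.log (√q / Y)) f (Real.log (u * Y))) (Ioi 0) := by
  have h1 := (integrable_inv_comp h.1 hf).neg
  refine h1.congr_fun (fun v hv => ?_) measurableSet_Ioi
  simp only [Pi.neg_apply]
  rw [refl_point h hY f hv, neg_neg]

/-- integrability of continuous functions vanishing for `x ≤ x₁`, of at most linear growth -/
lemma int_right (m : ℤ) {Y : ℕ} (hY : 3 ≤ Y) {f : ℝ → ℝ} (hf : Continuous f) {x₁ D : ℝ}
    (hD : ∀ x, |f x| ≤ D * (1 + |x|)) (hx₁ : ∀ x, f x ≠ 0 → x₁ ≤ x) :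
    IntegrableOn (fun u => theta m u * f (Real.log (u * Y))) (Ioi 0) := by
  have hY0 : (0 : ℝ) < Y := by exact_mod_cast (by omega : 0 < Y)
  set α := Real.exp x₁ / (2 * Y) with hα
  have hα0 : 0 < α := by positivity
  rw [(Ioc_union_Ioi_eq_Ioi hα0.le).symm]
  refine IntegrableOn.union ?_ ?_
  · refine (integrableOn_zero (s := Ioc 0 α)).congr_fun (fun u hu => ?_) measurableSet_Ioc
    have hu0 : 0 < u := hu.1
    by_cases h : f (Real.log (u * Y)) = 0
    · rw [h]; simp
    · exfalso
      have h1 := hx₁ _ h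
      have h2 : Real.exp x₁ ≤ u * Y := by
        rw [← Real.exp_log (show 0 < u * Y by positivity)]
        exact Real.exp_le_exp.2 h1
      have h3 : u * Y ≤ Real.exp x₁ / 2 := by
        calc u * Y ≤ α * Y := by gcongr; exact hu.2
          _ = Real.exp x₁ / 2 := by rw [hα]; field_simp
      linarith [Real.exp_pos x₁]
  · have hD0 : 0 ≤ D := by
      have := (abs_nonneg _).trans (hD 0)
      simpa using this
    refine Th.integrable_of_growth m hα0 (P004.Asm.meas_log hf Y) (b := D * (1 + (Y + 1 / (α ^ 2 * Y)))) ?_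
    intro u hu
    have hu0 : 0 < u := lt_of_lt_of_le hα0 hu
    have h1 : |Real.log (u * Y)| ≤ u * Y + 1 / (u * Y) := by
      have hp : 0 < u * Y := by positivity
      rcases le_total 1 (u * Y) with h | h
      · rw [abs_of_nonneg (Real.log_nonneg h)]
        have := Real.log_le_sub_one_of_pos hp
        have : 0 ≤ 1 / (u * Y) := by positivity
        linarith
      · rw [abs_of_nonpos (Real.log_nonpos hp.le h), ← Real.log_inv]
        have := Real.log_le_sub_one_of_pos (inv_pos.2 hp)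
        rw [← one_div] at this ⊢
        have h7 : 0 < u * Y := hp
        linarith
    have h2 : u * Y + 1 / (u * Y) ≤ (Y + 1 / (α ^ 2 * Y)) * u := by
      have h3 : 1 / (u * Y) ≤ 1 / (α ^ 2 * Y) * u := by
        rw [div_mul_eq_mul_div, one_mul, div_le_div_iff₀ (by positivity) (by positivity)]
        have : α ^ 2 ≤ u ^ 2 := by gcongr
        nlinarith
      nlinarith
    have h4 : u ≤ Real.exp u := by linarith [Real.add_one_le_exp u]
    have h5 : 1 ≤ Real.exp u := Real.one_le_exp hu0.le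
    have hc : 0 ≤ (Y : ℝ) + 1 / (α ^ 2 * Y) := by positivity
    calc |f (Real.log (u * Y))| ≤ D * (1 + |Real.log (u * Y)|) := hD _
      _ ≤ D * (1 + (Y + 1 / (α ^ 2 * Y)) * u) := by gcongr; linarith
      _ ≤ D * (Real.exp u + (Y + 1 / (α ^ 2 * Y)) * Real.exp u) := by gcongr
      _ = _ := by ring

/-- the right part -/
noncomputable def gp (R s x : ℝ) : ℝ := (x + s) * ηf (x / R)

/-- the strip kernel -/
noncomputable def ks (R s x : ℝ) : ℝ := (x + s) * ((1 - ηf (x / R)) * (1 - ηf ((-2 * s - x) / R)))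

lemma decomp {R s : ℝ} (hR : 0 < R) (hs : -s ≤ R) (x : ℝ) :
    x + s = ks R s x + gp R s x - rf s (gp R s) x := by
  have e0 : rf s (gp R s) x = (-2 * s - x + s) * ηf ((-2 * s - x) / R) := rfl
  rw [e0]
  unfold ks gp
  rcases le_total (-s) x with h | h
  · have h1 : ηf ((-2 * s - x) / R) = 0 := by
      apply ηf_zero
      rw [div_le_one hR]
      linarith
    rw [h1]
    ring
  · have h1 : ηf (x / R) = 0 := by
      apply ηf_zero
      rw [div_le_one hR]
      linarith
    rw [h1]
    ring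

/-- the even part of the decomposition of `1` -/
noncomputable def k1 (R s x : ℝ) : ℝ := (1 - ηf (x / R)) * (1 - ηf ((-2 * s - x) / R))

lemma decomp1 {R s : ℝ} (hR : 0 < R) (hs : -s ≤ R) (x : ℝ) :
    1 = k1 R s x + ηf (x / R) + rf s (fun y => ηf (y / R)) x := by
  have e0 : rf s (fun y => ηf (y / R)) x = ηf ((-2 * s - x) / R) := rfl
  rw [e0]
  unfold k1
  rcases le_total (-s) x with h | h
  · have h1 : ηf ((-2 * s - x) / R) = 0 := by
      apply ηf_zero
      rw [div_le_one hR]
      linarith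
    rw [h1]
    ring
  · have h1 : ηf (x / R) = 0 := by
      apply ηf_zero
      rw [div_le_one hR]
      linarith
    rw [h1]
    ring

lemma ηR_cont (R : ℝ) : Continuous (fun x => ηf (x / R)) :=
  ηf_cont.comp (continuous_id.div_const _)

lemma ηR_cont' (R s : ℝ) : Continuous (fun x => ηf ((-2 * s - x) / R)) :=
  ηf_cont.comp ((continuous_const.sub continuous_id).div_const _)

lemma gp_cont (R s : ℝ) : Continuous (gp R s) := by
  unfold gp
  exact (continuous_id.add continuous_const).mul (ηR_cont R)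

lemma ks_cont (R s : ℝ) : Continuous (ks R s) := by
  unfold ks
  exact (continuous_id.add continuous_const).mul
    ((continuous_const.sub (ηR_cont R)).mul (continuous_const.sub (ηR_cont' R s)))

lemma k1_cont (R s : ℝ) : Continuous (k1 R s) := by
  unfold k1
  exact (continuous_const.sub (ηR_cont R)).mul (continuous_const.sub (ηR_cont' R s))

lemma k1_supp {R s x : ℝ} (hR : 0 < R) (h : k1 R s x ≠ 0) : -2 * s - 2 * R ≤ x ∧ x ≤ 2 * R := by
  unfold k1 at h
  constructor
  · by_contra h'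
    push Not at h'
    apply h
    rw [ηf_one (t := (-2 * s - x) / R) (by rw [le_div_iff₀ hR]; linarith), sub_self, mul_zero]
  · by_contra h'
    push Not at h'
    apply h
    rw [ηf_one (t := x / R) (by rw [le_div_iff₀ hR]; linarith), sub_self, zero_mul]

lemma ks_eq (R s x : ℝ) : ks R s x = (x + s) * k1 R s x := rfl

lemma ks_supp {R s x : ℝ} (hR : 0 < R) (h : ks R s x ≠ 0) : -2 * s - 2 * R ≤ x ∧ x ≤ 2 * R := by
  rw [ks_eq] at h
  exact k1_supp hR (right_ne_zero_of_mul h)

lemma gp_supp {R s x : ℝ} (hR : 0 < R) (h : gp R s x ≠ 0) : R ≤ x := by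
  unfold gp at h
  by_contra h'
  push Not at h'
  apply h
  rw [ηf_zero (t := x / R) (by rw [div_le_one hR]; linarith), mul_zero]

lemma k1_mem (R s x : ℝ) : 0 ≤ k1 R s x ∧ k1 R s x ≤ 1 := by
  unfold k1
  have h1 := ηf_nonneg (x / R)
  have h2 := ηf_le_one (x / R)
  have h3 := ηf_nonneg ((-2 * s - x) / R)
  have h4 := ηf_le_one ((-2 * s - x) / R)
  constructor
  · exact mul_nonneg (by linarith) (by linarith)
  · exact mul_le_one₀ (by linarith) (by linarith) (by linarith)

lemma lin_growth (s : ℝ) {w : ℝ → ℝ} (hw : ∀ x, |w x| ≤ 1) (x : ℝ) :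
    |(x + s) * w x| ≤ (1 + |s|) * (1 + |x|) := by
  rw [abs_mul]
  calc |x + s| * |w x| ≤ |x + s| * 1 := by gcongr; exact hw x
    _ ≤ |x| + |s| := by rw [mul_one]; exact abs_add_le _ _
    _ ≤ (1 + |s|) * (1 + |x|) := by nlinarith [abs_nonneg x, abs_nonneg s]

lemma ηf_abs (t : ℝ) : |ηf t| ≤ 1 := by
  rw [abs_of_nonneg (ηf_nonneg t)]; exact ηf_le_one t

lemma int_gp (m : ℤ) {Y : ℕ} (hY : 3 ≤ Y) {R : ℝ} (hR : 0 < R) (s : ℝ) :
    IntegrableOn (fun u => theta m u * gp R s (Real.log (u * Y))) (Ioi 0) :=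
  int_right m hY (gp_cont R s) (fun x => lin_growth s (fun x => ηf_abs (x / R)) x)
    (fun _ hx => gp_supp hR hx)

lemma int_ks (m : ℤ) {Y : ℕ} (hY : 3 ≤ Y) {R : ℝ} (hR : 0 < R) (s : ℝ) :
    IntegrableOn (fun u => theta m u * ks R s (Real.log (u * Y))) (Ioi 0) :=
  int_right m hY (ks_cont R s) (fun x => lin_growth s (fun x => by
    rw [abs_of_nonneg (k1_mem R s x).1]; exact (k1_mem R s x).2) x)
    (fun _ hx => (ks_supp hR hx).1)

lemma int_η (m : ℤ) {Y : ℕ} (hY : 3 ≤ Y) {R : ℝ} (hR : 0 < R) :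
    IntegrableOn (fun u => theta m u * ηf (Real.log (u * Y) / R)) (Ioi 0) := by
  refine int_right m hY (f := fun x => ηf (x / R)) (ηR_cont R) (x₁ := R) (D := 1) (fun x => ?_) ?_
  · have := ηf_abs (x / R)
    nlinarith [abs_nonneg x]
  · intro x hx
    by_contra h'
    push Not at h'
    exact hx (ηf_zero (t := x / R) (by rw [div_le_one hR]; linarith))

lemma int_k1 (m : ℤ) {Y : ℕ} (hY : 3 ≤ Y) {R : ℝ} (hR : 0 < R) (s : ℝ) :
    IntegrableOn (fun u => theta m u * k1 R s (Real.log (u * Y))) (Ioi 0) := by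
  refine int_right m hY (k1_cont R s) (x₁ := -2 * s - 2 * R) (D := 1) (fun x => ?_) ?_
  · have := k1_mem R s x
    rw [abs_of_nonneg this.1]
    nlinarith [abs_nonneg x]
  · exact fun x hx => (k1_supp hR hx).1

/-- **The identity**: for root number `-1` and `Van m 2`. -/
theorem van_identity {m : ℤ} {q : ℝ} (h : FE m q) {Y : ℕ} (hY : 3 ≤ Y) {R : ℝ}
    (hR : 0 < R) (hs : -Real.log (√q / Y) ≤ R) (hV : Van m 2) :
    Fw Y (ks R (Real.log (√q / Y))) m + 2 * Fw Y (gp R (Real.log (√q / Y))) m = 0 := by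
  set s := Real.log (√q / Y) with hsdef
  have hY0 : (0 : ℝ) < Y := by exact_mod_cast (by omega : 0 < Y)
  have i1 := int_k1 m hY hR s
  have i2 := int_η m hY hR
  have i3 := int_rf h hY (f := fun y => ηf (y / R)) i2
  have i4 := int_ks m hY hR s
  have i5 := int_gp m hY hR s
  have i6 := int_rf h hY i5
  rw [← hsdef] at i3 i6
  -- integrability of `theta` and `theta * (x + s)`
  have j1 : IntegrableOn (fun u => theta m u) (Ioi 0) := by
    refine ((i1.add i2).add i3).congr_fun (fun u _ => ?_) measurableSet_Ioi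
    simp only [Pi.add_apply]
    rw [← mul_add, ← mul_add, ← decomp1 hR hs, mul_one]
  have j2 : IntegrableOn (fun u => theta m u * (Real.log (u * Y) + s)) (Ioi 0) := by
    refine ((i4.add i5).sub i6).congr_fun (fun u _ => ?_) measurableSet_Ioi
    simp only [Pi.add_apply, Pi.sub_apply]
    rw [decomp hR hs (Real.log (u * Y))]
    ring
  have j3 : IntegrableOn (fun u => theta m u * Real.log u) (Ioi 0) := by
    refine (j2.sub (j1.mul_const (Real.log Y + s))).congr_fun (fun u hu => ?_) measurableSet_Ioi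
    simp only [Pi.sub_apply]
    rw [Real.log_mul (mem_Ioi.1 hu).ne' hY0.ne']
    ring
  have v0 := hV 0 (by norm_num)
  have v1 := hV 1 (by norm_num)
  simp only [pow_zero, mul_one, pow_one] at v0 v1
  have e1 : ∫ u in Ioi (0 : ℝ), theta m u * (Real.log (u * Y) + s) = 0 := by
    have : ∀ u ∈ Ioi (0 : ℝ), theta m u * (Real.log (u * Y) + s) =
        theta m u * Real.log u + theta m u * (Real.log Y + s) := by
      intro u hu
      rw [Real.log_mul (mem_Ioi.1 hu).ne' hY0.ne']
      ring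
    rw [setIntegral_congr_fun measurableSet_Ioi this, integral_add j3 (j1.mul_const _),
      integral_mul_const, v0, v1]
    ring
  have e2 : ∫ u in Ioi (0 : ℝ), theta m u * (Real.log (u * Y) + s) =
      Fw Y (ks R s) m + Fw Y (gp R s) m - Fw Y (rf s (gp R s)) m := by
    unfold Fw Fn P004.cfY
    have e3 := integral_sub (i4.add i5) i6
    rw [integral_add' i4 i5] at e3
    rw [← e3]
    refine setIntegral_congr_fun measurableSet_Ioi fun u _ => ?_
    simp only [Pi.add_apply]
    rw [decomp hR hs (Real.log (u * Y))]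
    ring
  rw [e1, Fw_rf h hY] at e2
  linarith

end Fin
end P004E
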