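import Vale.Agent.P004E.H503.Strip

/-!
# P004E: dyadic decomposition of the right part
-/

open Real MeasureTheory Set Filter
open scoped ENNReal Topology ContDiff

namespace P004E
namespace Fin

open P004G P004G.Asm
open P004.Asm (ηf_nonneg ηf_le_one ηf_zero ηf_one ηf_cont)

/-! ### window functions -/

/-- windows with the weight `x / L` -/
noncomputable def hx (w L x : ℝ) : ℝ := x / L * (ηf (x / w) * (1 - ηf (x / (2 * w))))

/-- windows with the weight `1` -/
noncomputable def h1 (w x : ℝ) : ℝ := ηf (x / w) * (1 - ηf (x / (2 * w)))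

/-- the main window with the weight `1` -/
noncomputable def hm1 (ε : ℝ) (Y : ℕ) (x : ℝ) : ℝ :=
  ηf (x / (ε * Real.log Y)) * (1 - ηf (x / (3 / 2 * Real.log Y)))

/-- the tail -/
noncomputable def ht (Y : ℕ) (s x : ℝ) : ℝ :=
  (x + s) / Real.log Y * ηf (x / (3 / 2 * Real.log Y))

lemma win_der {φ : ℝ → ℝ} (hφ : ContDiff ℝ ∞ φ) (hsupp : ∀ t, 4 < |t| → φ t = 0) (n : ℕ) :
    ∃ C : ℝ, 1 ≤ C ∧ ∀ w : ℝ, 0 < w → ∀ i ≤ n, ∀ x,
      |iteratedDeriv i (fun x => φ (x / w)) x| ≤ C * w⁻¹ ^ i := by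
  obtain ⟨C, hC, h⟩ := param_bound (K := fun p : ℝ × ℝ => φ p.2) (hφ.comp contDiff_snd)
    (fun _ t _ ht => hsupp t ht) n
  refine ⟨C, hC, fun w hw i hi x => ?_⟩
  rw [scale_iter (f := φ) (n := n) (hφ.of_le (by exact_mod_cast le_top)) hi x, abs_mul, abs_pow,
    abs_of_pos (inv_pos.2 hw), mul_comm]
  exact mul_le_mul_of_nonneg_right (h 0 (by norm_num) i hi _) (by positivity)

lemma hη_supp {t : ℝ} (h : ηf t * (1 - ηf (t / 2)) ≠ 0) : 1 ≤ t ∧ t ≤ 4 := by
  constructor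
  · by_contra hc
    push Not at hc
    exact h (by rw [ηf_zero (t := t) hc.le, zero_mul])
  · by_contra hc
    push Not at hc
    exact h (by rw [ηf_one (t := t / 2) (by linarith), sub_self, mul_zero])

lemma η2_smooth (c : ℝ) : ContDiff ℝ ∞ (fun t : ℝ => ηf (t / c)) :=
  ηf_smooth.comp (contDiff_id.div_const c)

lemma div_two_w (x w : ℝ) : x / (2 * w) = x / w / 2 := by
  rw [mul_comm, div_div]

lemma hx_bound (n : ℕ) : ∃ C : ℝ, 1 ≤ C ∧ ∀ w L : ℝ, 0 < w → 0 < L → ∀ i ≤ n, ∀ x,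
    |iteratedDeriv i (hx w L) x| ≤ C * (w / L) * w⁻¹ ^ i := by
  obtain ⟨C, hC, h⟩ := win_der (φ := fun t => t * (ηf t * (1 - ηf (t / 2))))
    (contDiff_id.mul (ηf_smooth.mul (contDiff_const.sub (η2_smooth 2)))) (by
      intro t ht
      by_contra hc
      obtain ⟨h1, h2⟩ := hη_supp (right_ne_zero_of_mul hc)
      rw [abs_of_pos (by linarith)] at ht
      linarith) n
  refine ⟨C, hC, fun w L hw hL i hi x => ?_⟩
  have e : hx w L = fun x => w / L * (fun x => (fun t => t * (ηf t * (1 - ηf (t / 2)))) (x / w)) x := by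
    funext x
    unfold hx
    rw [div_two_w]
    field_simp
  rw [e, iteratedDeriv_const_mul_field, abs_mul, abs_of_pos (by positivity)]
  calc w / L * |iteratedDeriv i (fun x => (fun t => t * (ηf t * (1 - ηf (t / 2)))) (x / w)) x|
      ≤ w / L * (C * w⁻¹ ^ i) := by gcongr; exact h w hw i hi x
    _ = _ := by ring

lemma h1_bound (n : ℕ) : ∃ C : ℝ, 1 ≤ C ∧ ∀ w : ℝ, 0 < w → ∀ i ≤ n, ∀ x,
    |iteratedDeriv i (h1 w) x| ≤ C * w⁻¹ ^ i := by
  obtain ⟨C, hC, h⟩ := win_der (φ := fun t => ηf t * (1 - ηf (t / 2)))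
    (ηf_smooth.mul (contDiff_const.sub (η2_smooth 2))) (by
      intro t ht
      by_contra hc
      obtain ⟨h1, h2⟩ := hη_supp hc
      rw [abs_of_pos (by linarith)] at ht
      linarith) n
  refine ⟨C, hC, fun w hw i hi x => ?_⟩
  have e : h1 w = fun x => (fun t => ηf t * (1 - ηf (t / 2))) (x / w) := by
    funext x
    unfold h1
    rw [div_two_w]
  rw [e]
  exact h w hw i hi x

lemma hx_smooth (w L : ℝ) (n : ℕ) : ContDiff ℝ n (hx w L) := by
  unfold hx
  have : ContDiff ℝ ∞ (fun x : ℝ => x / L * (ηf (x / w) * (1 - ηf (x / (2 * w))))) :=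
    (contDiff_id.div_const L).mul ((η2_smooth w).mul (contDiff_const.sub (η2_smooth (2 * w))))
  exact this.of_le (by exact_mod_cast le_top)

lemma h1_smooth (w : ℝ) (n : ℕ) : ContDiff ℝ n (h1 w) := by
  unfold h1
  have : ContDiff ℝ ∞ (fun x : ℝ => (ηf (x / w) * (1 - ηf (x / (2 * w))))) :=
    ((η2_smooth w).mul (contDiff_const.sub (η2_smooth (2 * w))))
  exact this.of_le (by exact_mod_cast le_top)

lemma h1_supp {w x : ℝ} (hw : 0 < w) (h : h1 w x ≠ 0) : w ≤ x ∧ x ≤ 4 * w := by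
  unfold h1 at h
  rw [div_two_w] at h
  obtain ⟨h2, h3⟩ := hη_supp h
  rw [le_div_iff₀ hw] at h2
  rw [div_le_iff₀ hw] at h3
  exact ⟨by linarith, by linarith⟩

lemma hx_eq (w L x : ℝ) : hx w L x = x / L * h1 w x := rfl

lemma hx_supp {w L x : ℝ} (hw : 0 < w) (h : hx w L x ≠ 0) : w ≤ x ∧ x ≤ 4 * w := by
  rw [hx_eq] at h
  exact h1_supp hw (right_ne_zero_of_mul h)

lemma hm1_supp {ε : ℝ} {Y : ℕ} (hε : 0 < ε) (hL : 0 < Real.log Y) {x : ℝ} (h : hm1 ε Y x ≠ 0) :
    ε * Real.log Y ≤ x ∧ x ≤ 3 * Real.log Y := by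
  unfold hm1 at h
  constructor
  · by_contra hc
    push Not at hc
    exact h (by rw [ηf_zero (t := x / (ε * Real.log Y)) (by
      rw [div_le_one (by positivity)]; exact hc.le), zero_mul])
  · by_contra hc
    push Not at hc
    exact h (by rw [ηf_one (t := x / (3 / 2 * Real.log Y)) (by
      rw [le_div_iff₀ (by positivity)]; linarith), sub_self, mul_zero])

lemma hmain_eq (ε : ℝ) (Y : ℕ) (x : ℝ) : hmain ε Y x = x / Real.log Y * hm1 ε Y x := rfl

lemma hmain_supp {ε : ℝ} {Y : ℕ} (hε : 0 < ε) (hL : 0 < Real.log Y) {x : ℝ}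
    (h : hmain ε Y x ≠ 0) : ε * Real.log Y ≤ x ∧ x ≤ 3 * Real.log Y := by
  rw [hmain_eq] at h
  exact hm1_supp hε hL (right_ne_zero_of_mul h)

lemma hm1_smooth (ε : ℝ) (Y n : ℕ) : ContDiff ℝ n (hm1 ε Y) := by
  unfold hm1
  have : ContDiff ℝ ∞ (fun x : ℝ => (ηf (x / (ε * Real.log Y)) *
      (1 - ηf (x / (3 / 2 * Real.log Y))))) :=
    ((η2_smooth _).mul (contDiff_const.sub (η2_smooth _)))
  exact this.of_le (by exact_mod_cast le_top)

lemma hmain_smooth (ε : ℝ) (Y n : ℕ) : ContDiff ℝ n (hmain ε Y) := by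
  have e : hmain ε Y = fun x => x / Real.log Y * hm1 ε Y x := funext fun x => rfl
  rw [e]
  exact (contDiff_id.div_const _).mul (hm1_smooth ε Y n)

/-- derivative bounds for the main window -/
lemma main_bound {ε : ℝ} (hε : 0 < ε) (hε1 : ε ≤ 1) (n : ℕ) : ∃ C : ℝ, 1 ≤ C ∧ ∀ Y : ℕ,
    0 < Real.log Y → ∀ i ≤ n, ∀ x,
      |iteratedDeriv i (hmain ε Y) x| ≤ C * (ε * Real.log Y)⁻¹ ^ i ∧
      |iteratedDeriv i (hm1 ε Y) x| ≤ C * (ε * Real.log Y)⁻¹ ^ i := by
  have hsupp : ∀ t : ℝ, 4 < |t| → ηf (t / ε) * (1 - ηf (t / (3 / 2))) = 0 := by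
    intro t ht
    by_contra hc
    have h2 : ε ≤ t := by
      by_contra h'
      push Not at h'
      exact hc (by rw [ηf_zero (t := t / ε) (by rw [div_le_one hε]; exact h'.le), zero_mul])
    have h3 : t ≤ 3 := by
      by_contra h'
      push Not at h'
      exact hc (by rw [ηf_one (t := t / (3 / 2)) (by
        rw [le_div_iff₀ (by norm_num)]; linarith), sub_self, mul_zero])
    rw [abs_of_pos (by linarith)] at ht
    linarith
  obtain ⟨C, hC, h⟩ := win_der (φ := fun t => t * (ηf (t / ε) * (1 - ηf (t / (3 / 2)))))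
    (contDiff_id.mul ((η2_smooth ε).mul (contDiff_const.sub (η2_smooth (3 / 2)))))
    (fun t ht => by simp only [hsupp t ht, mul_zero]) n
  obtain ⟨C', hC', h'⟩ := win_der (φ := fun t => (ηf (t / ε) * (1 - ηf (t / (3 / 2)))))
    ((η2_smooth ε).mul (contDiff_const.sub (η2_smooth (3 / 2)))) hsupp n
  refine ⟨max C C', le_max_of_le_left hC, fun Y hL i hi x => ?_⟩
  have e1 : ∀ x : ℝ, x / (ε * Real.log Y) = x / Real.log Y / ε := fun x => by
    rw [div_div, mul_comm]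
  have e2 : ∀ x : ℝ, x / (3 / 2 * Real.log Y) = x / Real.log Y / (3 / 2) := fun x => by
    rw [div_div, mul_comm]
  have hp : (Real.log Y)⁻¹ ^ i ≤ (ε * Real.log Y)⁻¹ ^ i := by
    apply pow_le_pow_left₀ (by positivity)
    apply inv_anti₀ (by positivity)
    nlinarith
  constructor
  · have e : hmain ε Y = fun x => (fun t => t * (ηf (t / ε) * (1 - ηf (t / (3 / 2)))))
        (x / Real.log Y) := by
      funext x
      unfold hmain
      rw [e1, e2]
    rw [e]
    refine (h _ hL i hi x).trans ?_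
    gcongr
    exact le_max_left _ _
  · have e : hm1 ε Y = fun x => (fun t => (ηf (t / ε) * (1 - ηf (t / (3 / 2)))))
        (x / Real.log Y) := by
      funext x
      unfold hm1
      rw [e1, e2]
    rw [e]
    refine (h' _ hL i hi x).trans ?_
    gcongr
    exact le_max_right _ _

/-! ### decomposition -/

lemma η_mul {s t : ℝ} (h : 2 * t ≤ s ∨ t ≤ 1) : ηf s * ηf t = ηf t := by
  rcases h with h | h
  · by_cases ht : t ≤ 1
    · rw [ηf_zero ht, mul_zero]
    · push Not at ht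
      rw [ηf_one (t := s) (by linarith), one_mul]
  · rw [ηf_zero h, mul_zero]

lemma h1_eq {w : ℝ} (x : ℝ) : h1 w x = ηf (x / w) - ηf (x / (2 * w)) := by
  unfold h1
  have := η_mul (s := x / w) (t := x / (2 * w)) (Or.inl (by rw [div_two_w]; linarith))
  linear_combination -this

lemma tele (R : ℝ) (J : ℕ) (x : ℝ) :
    ηf (x / R) = ∑ q ∈ Finset.range J, h1 (2 ^ q * R) x + ηf (x / (2 ^ J * R)) := by
  induction J with
  | zero => simp
  | succ J ih =>
    rw [Finset.sum_range_succ, ih, h1_eq, pow_succ]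
    have : (2 : ℝ) * (2 ^ J * R) = 2 ^ J * 2 * R := by ring
    rw [this]
    ring

lemma decomp_gp {R s ε : ℝ} {Y J : ℕ} (hL : 0 < Real.log Y) (hε : 0 < ε) (hε1 : ε ≤ 3 / 4)
    (hJ : 2 ^ J * R = ε * Real.log Y) (x : ℝ) :
    1 / Real.log Y * gp R s x =
      ∑ q ∈ Finset.range J, (hx (2 ^ q * R) (Real.log Y) x + s / Real.log Y * h1 (2 ^ q * R) x) +
        hmain ε Y x + s / Real.log Y * hm1 ε Y x + ht Y s x := by
  unfold gp
  rw [tele R J x, hJ]
  have h2 : ηf (x / (ε * Real.log Y)) * ηf (x / (3 / 2 * Real.log Y)) =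
      ηf (x / (3 / 2 * Real.log Y)) := by
    apply η_mul
    by_cases hx : x ≤ 0
    · right
      exact (div_nonpos_of_nonpos_of_nonneg hx (by positivity)).trans zero_le_one
    · left
      push Not at hx
      rw [le_div_iff₀ (by positivity)]
      have : 2 * (x / (3 / 2 * Real.log Y)) * (ε * Real.log Y) = x * (4 / 3 * ε) := by
        field_simp; ring
      rw [this]
      nlinarith
  rw [hmain_eq]
  unfold hm1 ht
  simp_rw [hx_eq]
  rw [show ∑ q ∈ Finset.range J, (x / Real.log Y * h1 (2 ^ q * R) x +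
      s / Real.log Y * h1 (2 ^ q * R) x) = (x + s) / Real.log Y *
        ∑ q ∈ Finset.range J, h1 (2 ^ q * R) x by
    rw [Finset.mul_sum]; exact Finset.sum_congr rfl fun q _ => by ring]
  set S₁ := ∑ q ∈ Finset.range J, h1 (2 ^ q * R) x
  set a := ηf (x / (ε * Real.log Y))
  set b := ηf (x / (3 / 2 * Real.log Y))
  have e3 : 1 / Real.log Y * ((x + s) * (S₁ + a)) - ((x + s) / Real.log Y * S₁ +
      x / Real.log Y * (a * (1 - b)) + s / Real.log Y * (a * (1 - b)) +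
      (x + s) / Real.log Y * b) = (x + s) / Real.log Y * (a * b - b) := by ring
  rw [h2, sub_self, mul_zero] at e3
  linarith

variable [Crv]

/-- integrability of `theta m u * f (log (u Y))` -/
def IO (m : ℤ) (Y : ℕ) (f : ℝ → ℝ) : Prop :=
  IntegrableOn (fun u => theta m u * f (Real.log (u * Y))) (Ioi 0)

lemma IO.add {m : ℤ} {Y : ℕ} {f g : ℝ → ℝ} (hf : IO m Y f) (hg : IO m Y g) :
    IO m Y (fun x => f x + g x) := by
  have h : IntegrableOn (fun u => theta m u * f (Real.log (u * Y)) +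
    theta m u * g (Real.log (u * Y))) (Ioi 0) := Integrable.add hf hg
  unfold IO
  convert h using 2
  ring

lemma IO.smul {m : ℤ} {Y : ℕ} {f : ℝ → ℝ} (c : ℝ) (hf : IO m Y f) :
    IO m Y (fun x => c * f x) := by
  have h : IntegrableOn (fun u => c * (theta m u * f (Real.log (u * Y)))) (Ioi 0) :=
    Integrable.const_mul hf c
  unfold IO
  convert h using 2
  ring

lemma IO.sum {m : ℤ} {Y : ℕ} {ι : Type*} (T : Finset ι) {f : ι → ℝ → ℝ}
    (hf : ∀ i ∈ T, IO m Y (f i)) : IO m Y (fun x => ∑ i ∈ T, f i x) := by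
  have h : IntegrableOn (fun u => ∑ i ∈ T, theta m u * f i (Real.log (u * Y))) (Ioi 0) :=
    integrable_finset_sum _ hf
  unfold IO
  convert h using 2
  rw [Finset.mul_sum]

lemma Fw_add' {m : ℤ} {Y : ℕ} {f g : ℝ → ℝ} (hf : IO m Y f) (hg : IO m Y g) :
    Fw Y (fun x => f x + g x) m = Fw Y f m + Fw Y g m := by
  unfold Fw Fn P004.cfY
  rw [← integral_add hf hg]
  congr 1
  funext u
  ring

lemma Fw_sum' {m : ℤ} {Y : ℕ} {ι : Type*} (T : Finset ι) {f : ι → ℝ → ℝ}
    (hf : ∀ i ∈ T, IO m Y (f i)) :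
    Fw Y (fun x => ∑ i ∈ T, f i x) m = ∑ i ∈ T, Fw Y (f i) m := by
  unfold Fw Fn P004.cfY
  rw [← integral_finset_sum _ hf]
  congr 1
  funext u
  rw [Finset.mul_sum]

lemma hm1_abs (ε : ℝ) (Y : ℕ) (x : ℝ) : |hm1 ε Y x| ≤ 1 := by
  unfold hm1
  have a1 := ηf_nonneg (x / (ε * Real.log Y))
  have a2 := ηf_le_one (x / (ε * Real.log Y))
  have a3 := ηf_nonneg (x / (3 / 2 * Real.log Y))
  have a4 := ηf_le_one (x / (3 / 2 * Real.log Y))
  rw [abs_of_nonneg (mul_nonneg a1 (by linarith))]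
  exact mul_le_one₀ a2 (by linarith) (by linarith)

lemma h1_abs (w x : ℝ) : |h1 w x| ≤ 1 := by
  rw [h1_eq, abs_le]
  have a1 := ηf_nonneg (x / w)
  have a2 := ηf_le_one (x / w)
  have a3 := ηf_nonneg (x / (2 * w))
  have a4 := ηf_le_one (x / (2 * w))
  constructor <;> linarith

lemma ηb_supp {b x : ℝ} (hb : 0 < b) (h : ηf (x / b) ≠ 0) : b ≤ x := by
  by_contra hc
  push Not at hc
  exact h (ηf_zero (t := x / b) (by rw [div_le_one hb]; exact hc.le))

/-- integrability of bounded functions -/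
lemma io_bdd (m : ℤ) {Y : ℕ} (hY : 3 ≤ Y) {f : ℝ → ℝ} (hf : Continuous f) {x₁ : ℝ}
    (hf1 : ∀ x, |f x| ≤ 1) (hx₁ : ∀ x, f x ≠ 0 → x₁ ≤ x) : IO m Y f := by
  refine int_right m hY hf (D := 1) (fun x => ?_) hx₁
  have := hf1 x
  have := abs_nonneg x
  linarith

lemma io_lin (m : ℤ) {Y : ℕ} (hY : 3 ≤ Y) {f : ℝ → ℝ} (hf : Continuous f) {x₁ : ℝ} (s : ℝ)
    (hf1 : ∀ x, |f x| ≤ 1) (hx₁ : ∀ x, f x ≠ 0 → x₁ ≤ x) :
    IO m Y (fun x => (x + s) / Real.log Y * f x) := by
  have h : IO m Y (fun x => (x + s) * f x) := int_right m hY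
    ((continuous_id.add continuous_const).mul hf) (fun x => lin_growth s hf1 x)
    (fun x hx => hx₁ x (right_ne_zero_of_mul hx))
  have h2 := h.smul (1 / Real.log Y)
  convert h2 using 2
  ring

/-- **the identity, summed over the dyadic windows** -/
theorem van_windows {m : ℤ} {q : ℝ} (h : FE m q) {Y : ℕ} (hY : 3 ≤ Y) {R ε : ℝ} {J : ℕ}
    (hR : 0 < R) (hs : -Real.log (√q / Y) ≤ R) (hV : Van m 2) (hε : 0 < ε) (hε1 : ε ≤ 3 / 4)
    (hJ : 2 ^ J * R = ε * Real.log Y) :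
    Fw Y (hmain ε Y) m =
      -(1 / (2 * Real.log Y) * Fw Y (ks R (Real.log (√q / Y))) m +
        ∑ i ∈ Finset.range J, (Fw Y (hx (2 ^ i * R) (Real.log Y)) m +
          Real.log (√q / Y) / Real.log Y * Fw Y (h1 (2 ^ i * R)) m) +
        Real.log (√q / Y) / Real.log Y * Fw Y (hm1 ε Y) m +
        Fw Y (ht Y (Real.log (√q / Y))) m) := by
  have hY0 : (1 : ℝ) < Y := by exact_mod_cast (by omega : 1 < Y)
  have hL : 0 < Real.log Y := Real.log_pos hY0
  have hid := van_identity h hY hR hs hV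
  set s := Real.log (√q / Y) with hsdef
  have hw : ∀ i : ℕ, 0 < (2 : ℝ) ^ i * R := fun i => by positivity
  have hεL : 0 < ε * Real.log Y := by positivity
  have h32 : 0 < 3 / 2 * Real.log Y := by positivity
  -- integrability
  have i1 : ∀ i : ℕ, IO m Y (hx (2 ^ i * R) (Real.log Y)) := fun i => by
    have := io_lin m hY (h1_smooth (2 ^ i * R) 0).continuous (x₁ := 2 ^ i * R) 0
      (h1_abs _) (fun x hx => (h1_supp (hw i) hx).1)
    simp only [add_zero] at this
    exact this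
  have i2 : ∀ i : ℕ, IO m Y (h1 (2 ^ i * R)) := fun i =>
    io_bdd m hY (h1_smooth (2 ^ i * R) 0).continuous (h1_abs _)
      (fun x hx => (h1_supp (hw i) hx).1)
  have i3 : IO m Y (hmain ε Y) := by
    have := io_lin m hY (hm1_smooth ε Y 0).continuous (x₁ := ε * Real.log Y) 0
      (hm1_abs _ _) (fun x hx => (hm1_supp hε hL hx).1)
    simp only [add_zero] at this
    exact this
  have i4 : IO m Y (hm1 ε Y) :=
    io_bdd m hY (hm1_smooth ε Y 0).continuous (hm1_abs _ _) (fun x hx => (hm1_supp hε hL hx).1)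
  have i5 : IO m Y (ht Y s) :=
    io_lin m hY (f := fun x => ηf (x / (3 / 2 * Real.log Y))) (ηR_cont _)
      (x₁ := 3 / 2 * Real.log Y) s (fun x => ηf_abs _) (fun x hx => ηb_supp h32 hx)
  have j1 : ∀ i : ℕ, IO m Y (fun x => hx (2 ^ i * R) (Real.log Y) x +
      s / Real.log Y * h1 (2 ^ i * R) x) := fun i => (i1 i).add ((i2 i).smul _)
  have j2 := IO.sum (Finset.range J) (fun i _ => j1 i)
  have j3 := j2.add i3
  have j4 := j3.add (i4.smul (s / Real.log Y))
  have e : 1 / Real.log Y * Fw Y (gp R s) m =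
      ∑ i ∈ Finset.range J, (Fw Y (hx (2 ^ i * R) (Real.log Y)) m +
          s / Real.log Y * Fw Y (h1 (2 ^ i * R)) m) +
        Fw Y (hmain ε Y) m + s / Real.log Y * Fw Y (hm1 ε Y) m + Fw Y (ht Y s) m := by
    have e0 : ∑ i ∈ Finset.range J, (Fw Y (hx (2 ^ i * R) (Real.log Y)) m +
          s / Real.log Y * Fw Y (h1 (2 ^ i * R)) m) = Fw Y (fun x =>
        ∑ i ∈ Finset.range J, (hx (2 ^ i * R) (Real.log Y) x +
          s / Real.log Y * h1 (2 ^ i * R) x)) m := by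
      rw [Fw_sum' _ (fun i _ => j1 i)]
      refine Finset.sum_congr rfl fun i _ => ?_
      rw [Fw_add' (i1 i) ((i2 i).smul _), Fw_const_mul]
    rw [e0, ← Fw_const_mul, ← Fw_const_mul, ← Fw_add' j2 i3, ← Fw_add' j3 (i4.smul _),
      ← Fw_add' j4 i5]
    congr 1
    funext x
    exact decomp_gp (s := s) hL hε hε1 hJ x
  have e2 : 1 / (2 * Real.log Y) * Fw Y (ks R s) m + 1 / Real.log Y * Fw Y (gp R s) m = 0 := by
    have : 1 / (2 * Real.log Y) * (Fw Y (ks R s) m + 2 * Fw Y (gp R s) m) = 0 := by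
      rw [hid, mul_zero]
    rw [← this]
    field_simp
  rw [e] at e2
  linarith

end Fin
end P004E
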