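import Vale.Agent.P004E.H503.Bad

/-!
# P004E: a positive proportion of the class has `¬ Van m 2`
-/

open Real MeasureTheory Set Filter
open scoped ENNReal Topology ContDiff

namespace P004E
namespace Fin

open P004G P004G.Asm

variable [Crv]

lemma tendsto_log_nat : Tendsto (fun Y : ℕ => Real.log Y) atTop atTop :=
  Real.tendsto_log_atTop.comp tendsto_natCast_atTop_atTop

/-- the second moment of the whole mollifier -/
lemma M_moment (hMr : StMr) {C₀ c₀ : ℝ} (hC₀ : 1 ≤ C₀) (hc₀ : 0 < c₀) {y₀ θ : ℝ} (hy₀ : 2 ≤ y₀)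
    (hθ : 0 < θ) (hθ1 : θ ≤ 1 / 1000) : ∃ Cr z₀ : ℝ, 0 ≤ Cr ∧ 0 < z₀ ∧ ∀ z : ℝ, 0 < z → z ≤ z₀ →
    ∃ Y₀ : ℕ, ∀ (Y : ℕ) (S : ℕ → Finset ℕ) (c : ℕ → ℕ → ℝ), Y₀ ≤ Y →
    BlkOK C₀ c₀ (1 / 20) y₀ θ z (Real.log Y) S c →
    ∑ m ∈ sqZ Y, Mh S c 0 (nb θ z (Real.log Y) + 1) m ^ 2 ≤
      Cr * Y * Real.log Y ^ (28 / 25 : ℝ) := by
  obtain ⟨C₂, z₂, hC₂, hz₂, hmr⟩ := hMr C₀ c₀ (1 / 20) hC₀ hc₀ (by norm_num) (by norm_num) y₀ θ hy₀
    hθ (by linarith)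
  have hcc : 0 < P004.H1.c0 := P004.H1.c0_pos
  refine ⟨1 / P004.H1.c0 * C₂, z₂, by positivity, hz₂, fun z hz hzz => ?_⟩
  obtain ⟨Y₁, hY₁⟩ := hmr z hz hzz
  obtain ⟨Y₂, hY₂⟩ := eventually_atTop.1 (tendsto_log_nat.eventually_ge_atTop 1)
  refine ⟨max Y₁ (max Y₂ 3), fun Y S c hY hB => ?_⟩
  have hL1 := hY₂ Y (((le_max_left _ _).trans (le_max_right _ _)).trans hY)
  have hY3 : 3 ≤ Y := ((le_max_right _ _).trans (le_max_right _ _)).trans hY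
  have h2 := hY₁ Y S c ((le_max_left _ _).trans hY) hB _ le_rfl
  rw [if_neg (by omega)] at h2
  refine (sqZ_le_tsum (by omega : 1 ≤ Y) (fun k => sq_nonneg _) h2.1).trans ?_
  rw [mul_assoc, mul_assoc]
  refine mul_le_mul_of_nonneg_left (h2.2.trans ?_) (by positivity)
  rw [mul_assoc]
  have h3 : Real.log Y ^ ((1 + 2 * (1 / 20 : ℝ)) * (1 + θ)) ≤ Real.log Y ^ (28 / 25 : ℝ) :=
    Real.rpow_le_rpow_of_exponent_le hL1 (by nlinarith)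
  gcongr

/-- the mollified second moment of the main windows -/
lemma main_moment (hW : StWin) {C₀ c₀ : ℝ} (hC₀ : 1 ≤ C₀) (hc₀ : 0 < c₀) {y₀ θ η₁ : ℝ}
    (hy₀ : 2 ≤ y₀) (hθ : 0 < θ) (hθ1 : θ ≤ 1 / 1000) (hη₁ : 0 < η₁) (hη₁' : η₁ ≤ 1 / 10)
    (hθη : 2 * θ * (1 / 20) ≤ η₁) : ∃ z₀ : ℝ, 0 < z₀ ∧ ∀ z : ℝ, 0 < z → z ≤ z₀ →
    ∃ (Cm : ℝ) (Y₀ : ℕ), 0 ≤ Cm ∧ ∀ (Y : ℕ) (S : ℕ → Finset ℕ) (c : ℕ → ℕ → ℝ), Y₀ ≤ Y →
    BlkOK C₀ c₀ (1 / 20) y₀ θ z (Real.log Y) S c →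
    ∑ m ∈ sqZ Y, (Mh S c 0 (nb θ z (Real.log Y) + 1) m *
      Fw Y (hmain (z ^ (1 - η₁)) Y) m) ^ 2 ≤ Cm * Y ∧
    ∑ m ∈ sqZ Y, (Mh S c 0 (nb θ z (Real.log Y) + 1) m *
      Fw Y (hm1 (z ^ (1 - η₁)) Y) m) ^ 2 ≤ Cm * Y := by
  obtain ⟨A, hA⟩ := hW C₀ c₀ (1 / 20) hC₀ hc₀ (by norm_num) (by norm_num)
  obtain ⟨n, C₁, z₁, hC₁, hz₁, hwin⟩ := hA y₀ θ hy₀ hθ (by linarith)
  have hcc : 0 < P004.H1.c0 := P004.H1.c0_pos
  -- `64 C₀ z^(η₁/2) ≤ 1`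
  set z₂ : ℝ := (1 / (64 * C₀)) ^ (2 / η₁) with hz₂
  have hz₂0 : 0 < z₂ := by positivity
  refine ⟨min z₁ (min z₂ (1 / 4)), by positivity, fun z hz hzz => ?_⟩
  have hz1 : z ≤ z₁ := hzz.trans (min_le_left _ _)
  have hz2 : z ≤ z₂ := hzz.trans ((min_le_right _ _).trans (min_le_left _ _))
  have hz4 : z ≤ 1 / 4 := hzz.trans ((min_le_right _ _).trans (min_le_right _ _))
  set ε : ℝ := z ^ (1 - η₁) with hε
  have hε0 : 0 < ε := by positivity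
  have hε1 : ε ≤ 1 := Real.rpow_le_one hz.le (by linarith) (by linarith)
  obtain ⟨Cd, hCd, hder⟩ := main_bound hε0 hε1 n
  obtain ⟨Y₁, hY₁⟩ := hwin z hz hz1 (3 / ε) (by rw [le_div_iff₀ hε0]; linarith)
  have hev : ∀ᶠ Y : ℕ in atTop, 1 ≤ Real.log Y ∧
      Real.log Y ^ (1 / 200 : ℝ) ≤ ε * Real.log Y := by
    refine (tendsto_log_nat.eventually_ge_atTop 1).and ?_
    have h2 : Tendsto (fun Y : ℕ => Real.log Y ^ (199 / 200 : ℝ)) atTop atTop :=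
      (tendsto_rpow_atTop (by norm_num)).comp tendsto_log_nat
    filter_upwards [h2.eventually_ge_atTop (1 / ε), tendsto_log_nat.eventually_ge_atTop 1]
      with Y h3 h4
    rw [div_le_iff₀ hε0] at h3
    have hL0 : 0 < Real.log Y := by linarith
    calc Real.log Y ^ (1 / 200 : ℝ) = 1 * Real.log Y ^ (1 / 200 : ℝ) := (one_mul _).symm
      _ ≤ (Real.log Y ^ (199 / 200 : ℝ) * ε) * Real.log Y ^ (1 / 200 : ℝ) := by gcongr
      _ = ε * (Real.log Y ^ (199 / 200 : ℝ) * Real.log Y ^ (1 / 200 : ℝ)) := by ring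
      _ = ε * Real.log Y := by rw [← Real.rpow_add hL0]; norm_num
  obtain ⟨Y₂, hY₂⟩ := eventually_atTop.1 hev
  refine ⟨1 / P004.H1.c0 * (C₁ * (3 / ε) ^ n * Cd ^ 2 * (ε / z) ^ A * (3 / ε) ^ (A * θ) *
    (1 + Real.log (3 / ε))), max Y₁ (max Y₂ 3), ?_, fun Y S c hY hB => ?_⟩
  · have : 0 ≤ Real.log (3 / ε) := Real.log_nonneg (by rw [le_div_iff₀ hε0]; linarith)
    positivity
  obtain ⟨hL1, hL2⟩ := hY₂ Y (((le_max_left _ _).trans (le_max_right _ _)).trans hY)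
  have hY3 : 3 ≤ Y := ((le_max_right _ _).trans (le_max_right _ _)).trans hY
  have hL0 : 0 < Real.log Y := by linarith
  have hcond : 64 * C₀ * (Real.log Y * zi θ z 0) * Real.exp (1 / 20 * li θ z 0) ≤
      ε * Real.log Y := by
    rw [zi_zero]
    unfold li
    rw [zi_zero]
    have e1 : Real.exp (1 / 20 * (θ * Real.log (1 / z))) = z ^ (-(1 / 20 * θ)) := by
      rw [Real.rpow_def_of_pos hz, Real.log_div one_ne_zero hz.ne', Real.log_one]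
      congr 1
      ring
    rw [e1]
    have e2 : 64 * C₀ * z ^ (η₁ / 2) ≤ 1 := by
      calc 64 * C₀ * z ^ (η₁ / 2) ≤ 64 * C₀ * z₂ ^ (η₁ / 2) := by gcongr
        _ = 64 * C₀ * (1 / (64 * C₀)) := by
            rw [hz₂, ← Real.rpow_mul (by positivity)]
            congr 2
            rw [show 2 / η₁ * (η₁ / 2) = 1 by field_simp, Real.rpow_one]
        _ = 1 := by field_simp
    have e3 : z * z ^ (-(1 / 20 * θ)) ≤ ε * z ^ (η₁ / 2) := by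
      rw [hε, ← Real.rpow_add hz]
      nth_rewrite 1 [← Real.rpow_one z]
      rw [← Real.rpow_add hz]
      apply Real.rpow_le_rpow_of_exponent_ge hz (by linarith)
      linarith
    calc 64 * C₀ * (Real.log Y * z) * z ^ (-(1 / 20 * θ))
        = 64 * C₀ * Real.log Y * (z * z ^ (-(1 / 20 * θ))) := by ring
      _ ≤ 64 * C₀ * Real.log Y * (ε * z ^ (η₁ / 2)) := by gcongr
      _ = (64 * C₀ * z ^ (η₁ / 2)) * (ε * Real.log Y) := by ring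
      _ ≤ 1 * (ε * Real.log Y) := by gcongr
      _ = _ := one_mul _
  have key : ∀ h : ℝ → ℝ, ContDiff ℝ n h → (∀ x, h x ≠ 0 → ε * Real.log Y ≤ x ∧
      x ≤ 3 * Real.log Y) → (∀ k ≤ n, ∀ x, |iteratedDeriv k h x| ≤ Cd * (ε * Real.log Y)⁻¹ ^ k) →
      ∑ m ∈ sqZ Y, (Mh S c 0 (nb θ z (Real.log Y) + 1) m * Fw Y h m) ^ 2 ≤
      1 / P004.H1.c0 * (C₁ * (3 / ε) ^ n * Cd ^ 2 * (ε / z) ^ A * (3 / ε) ^ (A * θ) *
    (1 + Real.log (3 / ε))) * Y := by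
    intro h hsm hsupp hd
    have h1 := hY₁ Y S c ((le_max_left _ _).trans hY) hB 0 (ε * Real.log Y) Cd h (Nat.zero_le _)
      hL2 (by nlinarith) hcond (by linarith) hsm (fun x hx => ⟨(hsupp x hx).1, by
        have := (hsupp x hx).2
        have e : 3 / ε * (ε * Real.log Y) = 3 * Real.log Y := by field_simp
        rw [e]; exact this, (hsupp x hx).2⟩) hd
    refine (sqZ_le_tsum (by omega : 1 ≤ Y) (fun k => sq_nonneg _) h1.1).trans ?_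
    rw [mul_assoc (1 / P004.H1.c0)]
    refine mul_le_mul_of_nonneg_left (h1.2.trans (le_of_eq ?_)) (by positivity)
    rw [zi_zero]
    have e1 : ε * Real.log Y / (Real.log Y * z) = ε / z := by field_simp
    have e2 : 3 * Real.log Y / (ε * Real.log Y) = 3 / ε := by field_simp
    rw [e1, e2]
    ring
  exact ⟨key _ (hmain_smooth _ _ _) (fun x hx => hmain_supp hε0 hL0 hx)
    (fun k hk x => (hder Y hL0 k hk x).1),
    key _ (hm1_smooth _ _ _) (fun x hx => hm1_supp hε0 hL0 hx)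
    (fun k hk x => (hder Y hL0 k hk x).2)⟩

end Fin
end P004E
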