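import Vale.Agent.P004E.H503.Final

/-!
# P004E: a positive proportion of the class has `¬ Van m 2`
-/

open Real MeasureTheory Set Filter
open scoped ENNReal Topology ContDiff

namespace P004E
namespace Fin

open P004G P004G.Asm

variable [Crv]

lemma tendsto_sq_exp : Tendsto (fun Y : ℕ => (Y : ℝ) ^ 2 * Real.exp (-√(Y : ℝ))) atTop (𝓝 0) := by
  have h1 : Tendsto (fun Y : ℕ => √(Y : ℝ)) atTop atTop := by
    have h2 : Tendsto (fun x : ℝ => √x) atTop atTop := Real.tendsto_sqrt_atTop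
    exact h2.comp tendsto_natCast_atTop_atTop
  have h3 := (Real.tendsto_pow_mul_exp_neg_atTop_nhds_zero 4).comp h1
  refine h3.congr fun Y => ?_
  simp only [Function.comp]
  congr 1
  rw [show (4 : ℕ) = 2 * 2 by norm_num, pow_mul, Real.sq_sqrt (Nat.cast_nonneg Y)]

lemma tendsto_err (a b c d : ℝ) : Tendsto (fun Y : ℕ => a * Real.log Y ^ (-(1 / 50) : ℝ) +
    b * Real.log Y ^ (-(1 / 8) : ℝ) + c * (Real.log Y)⁻¹ +
      d * ((Y : ℝ) ^ 2 * Real.exp (-√(Y : ℝ)))) atTop (𝓝 0) := by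
  have h1 : Tendsto (fun Y : ℕ => Real.log Y ^ (-(1 / 50) : ℝ)) atTop (𝓝 0) :=
    (tendsto_rpow_neg_atTop (by norm_num)).comp tendsto_log_nat
  have h2 : Tendsto (fun Y : ℕ => Real.log Y ^ (-(1 / 8) : ℝ)) atTop (𝓝 0) :=
    (tendsto_rpow_neg_atTop (by norm_num)).comp tendsto_log_nat
  have h3 : Tendsto (fun Y : ℕ => (Real.log Y)⁻¹) atTop (𝓝 0) :=
    tendsto_inv_atTop_zero.comp tendsto_log_nat
  have h := (((h1.const_mul a).add (h2.const_mul b)).add (h3.const_mul c)).add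
    (tendsto_sq_exp.const_mul d)
  simpa using h

lemma centre {q₀ : ℝ} (hq₀ : 0 < q₀) {m : ℤ} {Y : ℕ} (hY : 0 < Y) (h1 : m.natAbs ≤ Y)
    (h2 : Y < 2 * m.natAbs) :
    |Real.log (√(q₀ * (m : ℝ) ^ 2) / Y)| ≤ |Real.log (√q₀)| + Real.log 2 := by
  have hY0 : (0 : ℝ) < Y := by exact_mod_cast hY
  have hm0 : 0 < m.natAbs := by omega
  have hm1 : (0 : ℝ) < (m.natAbs : ℝ) := by exact_mod_cast hm0
  have e1 : √(q₀ * (m : ℝ) ^ 2) = √q₀ * (m.natAbs : ℝ) := by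
    rw [Real.sqrt_mul hq₀.le, Real.sqrt_sq_eq_abs, Nat.cast_natAbs, Int.cast_abs]
  rw [e1, mul_div_assoc, Real.log_mul (by positivity) (by positivity)]
  refine (abs_add_le _ _).trans (add_le_add le_rfl ?_)
  have h3 : (m.natAbs : ℝ) / Y ≤ 1 := by
    rw [div_le_one hY0]; exact_mod_cast h1
  have h4 : (1 / 2 : ℝ) ≤ (m.natAbs : ℝ) / Y := by
    rw [le_div_iff₀ hY0]
    have : (Y : ℝ) < 2 * (m.natAbs : ℝ) := by exact_mod_cast h2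
    linarith
  rw [abs_of_nonpos (Real.log_nonpos (by positivity) h3)]
  have h5 := Real.log_le_log (by norm_num) h4
  rw [Real.log_div one_ne_zero (by norm_num), Real.log_one] at h5
  linarith

lemma cl_sub (σ : ℤ) (N Y : ℕ) : Cl σ N Y ⊆ (sqZ Y).filter (fun m => Y < 2 * m.natAbs) := by
  intro m hm
  unfold Cl at hm
  rw [Finset.mem_filter] at hm ⊢
  exact ⟨hm.1, hm.2.1⟩

open scoped Classical in
/-- the twists with `Van m 2` -/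
noncomputable def TB (σ : ℤ) (N Y : ℕ) : Finset ℤ := (Cl σ N Y).filter (fun m => Van m 2)

open scoped Classical in
/-- the others -/
noncomputable def TG (σ : ℤ) (N Y : ℕ) : Finset ℤ := (Cl σ N Y).filter (fun m => ¬ Van m 2)

lemma tb_sub (σ : ℤ) (N Y : ℕ) : TB σ N Y ⊆ (sqZ Y).filter (fun m => Y < 2 * m.natAbs) := by
  classical
  unfold TB
  exact (Finset.filter_subset _ _).trans (cl_sub σ N Y)

lemma tg_sub (σ : ℤ) (N Y : ℕ) : TG σ N Y ⊆ sqZ Y := by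
  classical
  unfold TG
  exact (Finset.filter_subset _ _).trans ((cl_sub σ N Y).trans (Finset.filter_subset _ _))

lemma mem_TB {σ : ℤ} {N Y : ℕ} {m : ℤ} : m ∈ TB σ N Y ↔ m ∈ Cl σ N Y ∧ Van m 2 := by
  classical
  unfold TB
  rw [Finset.mem_filter]

lemma mem_TG {σ : ℤ} {N Y : ℕ} {m : ℤ} : m ∈ TG σ N Y ↔ m ∈ Cl σ N Y ∧ ¬ Van m 2 := by
  classical
  unfold TG
  rw [Finset.mem_filter]

lemma tb_fe {σ : ℤ} {N : ℕ} {q₀ : ℝ} (hq₀ : 0 < q₀)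
    (hfe : ∀ m : ℤ, Squarefree m → m.sign = σ → m % (N : ℤ) = 1 → m ≠ 1 →
      FE m (q₀ * (m : ℝ) ^ 2)) {Y : ℕ} (hY : 3 ≤ Y) : ∀ m ∈ TB σ N Y,
    FE m (q₀ * (m : ℝ) ^ 2) ∧ |Real.log (√(q₀ * (m : ℝ) ^ 2) / Y)| ≤
      |Real.log (√q₀)| + Real.log 2 ∧ Van m 2 := by
  intro m hm
  obtain ⟨hm1, hm2⟩ := mem_TB.1 hm
  unfold Cl at hm1
  rw [Finset.mem_filter, mem_sqZ] at hm1
  obtain ⟨⟨h1, h2⟩, h3, h4, h5⟩ := hm1
  refine ⟨hfe m h2 h4 h5 ?_, centre hq₀ (by omega) h1 h3, hm2⟩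
  rintro rfl
  simp at h3
  omega

/-- the conclusion for one `Y` -/
lemma good_fixed {σ : ℤ} {N Y : ℕ} {M F : ℤ → ℝ} {c₁ Cm : ℝ} (hY : 3 ≤ Y) (hc₁ : 0 < c₁)
    (hCm : 0 ≤ Cm) (hmn : ∑ m ∈ sqZ Y, (M m * F m) ^ 2 ≤ Cm * Y)
    (hfirst : c₁ * Y ≤ ∑ m ∈ Cl σ N Y, M m * F m)
    (hbad : ∑ m ∈ TB σ N Y, M m * F m ≤ c₁ / 2 * Y) :
    c₁ ^ 2 / (4 * (Cm + 1)) * Y ≤ ((TG σ N Y).card : ℝ) := by
  have hY0 : (0 : ℝ) < Y := by exact_mod_cast (by omega : 0 < Y)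
  have hsplit : ∑ m ∈ Cl σ N Y, M m * F m =
      ∑ m ∈ TB σ N Y, M m * F m + ∑ m ∈ TG σ N Y, M m * F m := by
    unfold TB TG
    rw [Finset.sum_filter_add_sum_filter_not]
  set G := TG σ N Y with hG
  have hG1 : ∑ m ∈ G, M m * F m ≤ √(G.card : ℝ) * √(Cm * Y) := by
    have hGs : G ⊆ sqZ Y := tg_sub σ N Y
    have h1 := Real.sum_mul_le_sqrt_mul_sqrt G (fun _ => (1 : ℝ)) (fun m => M m * F m)
    simp only [one_mul, one_pow, Finset.sum_const, nsmul_eq_mul, mul_one] at h1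
    refine h1.trans (mul_le_mul_of_nonneg_left ?_ (Real.sqrt_nonneg _))
    exact Real.sqrt_le_sqrt ((Finset.sum_le_sum_of_subset_of_nonneg hGs
      fun _ _ _ => sq_nonneg _).trans hmn)
  have hmain' : c₁ / 2 * Y ≤ √(G.card : ℝ) * √((Cm + 1) * Y) := by
    have h2 : √(Cm * Y) ≤ √((Cm + 1) * Y) := by
      apply Real.sqrt_le_sqrt
      nlinarith
    have h3 : √(G.card : ℝ) * √(Cm * Y) ≤ √(G.card : ℝ) * √((Cm + 1) * Y) := by gcongr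
    rw [hsplit] at hfirst
    linarith
  have h5 : (c₁ / 2 * Y) ^ 2 ≤ (G.card : ℝ) * ((Cm + 1) * Y) := by
    calc (c₁ / 2 * Y) ^ 2 ≤ (√(G.card : ℝ) * √((Cm + 1) * Y)) ^ 2 := by gcongr
      _ = _ := by rw [mul_pow, Real.sq_sqrt (by positivity), Real.sq_sqrt (by positivity)]
  rw [div_mul_eq_mul_div, div_le_iff₀ (by positivity)]
  have h6 : (c₁ ^ 2 * Y) * Y ≤ ((G.card : ℝ) * (4 * (Cm + 1))) * Y := by nlinarith
  exact le_of_mul_le_mul_right h6 hY0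

/-- the parameters `η₁`, `θ` -/
lemma exists_param (A : ℕ) : ∃ η₁ θ : ℝ, 0 < η₁ ∧ 0 < θ ∧ η₁ ≤ 1 / 16 ∧ θ ≤ 1 / 16000 ∧
    2 * θ * (1 / 20) ≤ η₁ ∧ ((A : ℝ) + 1) * (η₁ + θ) ≤ 1 / 8 := by
  have hA0 : (0 : ℝ) < (A : ℝ) + 1 := by positivity
  have hA1 : (1 : ℝ) ≤ (A : ℝ) + 1 := by
    have : (0 : ℝ) ≤ A := Nat.cast_nonneg A
    linarith
  set η₁ : ℝ := 1 / (16 * ((A : ℝ) + 1)) with hη₁
  set θ : ℝ := 1 / (16000 * ((A : ℝ) + 1)) with hθ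
  have hη₁0 : 0 < η₁ := by positivity
  have hθη : θ = η₁ / 1000 := by
    rw [hθ, hη₁]; field_simp; norm_num
  refine ⟨η₁, θ, hη₁0, by positivity, ?_, ?_, by linarith, ?_⟩
  · rw [hη₁, div_le_div_iff₀ (by positivity) (by norm_num)]
    linarith
  · rw [hθ, div_le_div_iff₀ (by positivity) (by norm_num)]
    linarith
  · rw [hθη]
    have : ((A : ℝ) + 1) * η₁ = 1 / 16 := by rw [hη₁]; field_simp
    calc ((A : ℝ) + 1) * (η₁ + η₁ / 1000) = (((A : ℝ) + 1) * η₁) * (1001 / 1000) := by ring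
      _ = 1 / 16 * (1001 / 1000) := by rw [this]
      _ ≤ 1 / 8 := by norm_num

/-- eventual conditions on `Y` -/
lemma ev_cond {ε c₁ a L₀ : ℝ} (hε0 : 0 < ε) (hc₁ : 0 < c₁) (A₁ A₂ A₃ A₄ : ℝ) :
    ∀ᶠ Y : ℕ in atTop, (1 ≤ Real.log Y ∧ L₀ ≤ Real.log Y) ∧
      (max 1 a ≤ Real.log Y ^ (1 / 100 : ℝ) / 4 ∧
        Real.log Y ^ (1 / 200 : ℝ) ≤ Real.log Y ^ (1 / 100 : ℝ) / 4) ∧
      Real.log Y ^ (1 / 100 : ℝ) / 2 ≤ ε * Real.log Y ∧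
      A₁ * Real.log Y ^ (-(1 / 50) : ℝ) + A₂ *
        Real.log Y ^ (-(1 / 8) : ℝ) + A₃ * (Real.log Y)⁻¹ +
      A₄ * ((Y : ℝ) ^ 2 * Real.exp (-√(Y : ℝ))) ≤ c₁ / 4 := by
  have t1 : Tendsto (fun Y : ℕ => Real.log Y ^ (1 / 100 : ℝ)) atTop atTop :=
    (tendsto_rpow_atTop (by norm_num)).comp tendsto_log_nat
  have t2 : Tendsto (fun Y : ℕ => Real.log Y ^ (1 / 200 : ℝ)) atTop atTop :=
    (tendsto_rpow_atTop (by norm_num)).comp tendsto_log_nat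
  have t3 : Tendsto (fun Y : ℕ => Real.log Y ^ (99 / 100 : ℝ)) atTop atTop :=
    (tendsto_rpow_atTop (by norm_num)).comp tendsto_log_nat
  have t4 := tendsto_err A₁ A₂ A₃ A₄
  filter_upwards [tendsto_log_nat.eventually_ge_atTop 1, tendsto_log_nat.eventually_ge_atTop L₀,
    t1.eventually_ge_atTop (4 * max 1 a), t2.eventually_ge_atTop 4,
    t3.eventually_ge_atTop (1 / ε), t4.eventually_le_const (show (0 : ℝ) < c₁ / 4 by positivity)]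
    with Y h1 h2 h3 h4 h5 h6
  have hL0 : 0 < Real.log Y := by linarith
  refine ⟨⟨h1, h2⟩, ⟨by linarith, ?_⟩, ?_, h6⟩
  · have e1 : Real.log Y ^ (1 / 100 : ℝ) =
        Real.log Y ^ (1 / 200 : ℝ) * Real.log Y ^ (1 / 200 : ℝ) := by
      rw [← Real.rpow_add hL0]; norm_num
    rw [e1]
    have : 0 < Real.log Y ^ (1 / 200 : ℝ) := by positivity
    nlinarith
  · rw [div_le_iff₀ hε0] at h5
    have e1 : Real.log Y = Real.log Y ^ (99 / 100 : ℝ) * Real.log Y ^ (1 / 100 : ℝ) := by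
      rw [← Real.rpow_add hL0]; norm_num
    have e2 : 0 < Real.log Y ^ (1 / 100 : ℝ) := by positivity
    calc Real.log Y ^ (1 / 100 : ℝ) / 2 ≤ 1 * Real.log Y ^ (1 / 100 : ℝ) := by linarith
      _ ≤ (Real.log Y ^ (99 / 100 : ℝ) * ε) * Real.log Y ^ (1 / 100 : ℝ) := by gcongr
      _ = ε * (Real.log Y ^ (99 / 100 : ℝ) * Real.log Y ^ (1 / 100 : ℝ)) := by ring
      _ = ε * Real.log Y := by rw [← e1]

/-- **Main theorem**: a positive proportion of the class has `¬ Van m 2`. -/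
theorem good_count (hF : StFirst) (hW : StWin) (hMr : StMr) (hB : StBlk) (hS : StStrip)
    {σ : ℤ} {N : ℕ} {q₀ : ℝ} (hσ : σ = 1 ∨ σ = -1) (hN : 0 < N) (h8 : 8 ∣ N) (hbd : bd ∣ N)
    (hq₀ : 0 < q₀) (hfe : ∀ m : ℤ, Squarefree m → m.sign = σ → m % (N : ℤ) = 1 → m ≠ 1 →
      FE m (q₀ * (m : ℝ) ^ 2)) :
    ∃ c : ℝ, 0 < c ∧ ∃ Y₀ : ℕ, ∀ Y : ℕ, Y₀ ≤ Y → c * Y ≤ ((TG σ N Y).card : ℝ) := by
  obtain ⟨C₀, c₀, hC₀, hc₀, hBlk⟩ := hB (1 / 20) (by norm_num) (by norm_num)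
  obtain ⟨A, hwin⟩ := win_bound hW hMr hC₀ hc₀
  obtain ⟨c₁, y₀, hc₁, hy₀, hfirst⟩ := hF C₀ c₀ (1 / 20) hC₀ hc₀ (by norm_num) (by norm_num) σ N
    hσ hN h8 hbd
  obtain ⟨η₁, θ, hη₁0, hθ0, hη₁1, hθ1, hθη, hsum⟩ := exists_param A
  obtain ⟨zB, hzB0, hzB1, hBlk⟩ := hBlk y₀ θ hy₀ hθ0 (by linarith)
  obtain ⟨n, Cw, zW, hCw, hzW0, hzW4, hwin⟩ := hwin y₀ θ η₁ hy₀ hθ0 (by linarith) hη₁0
    (by linarith) hsum
  obtain ⟨Cr, zR, hCr, hzR0, hMr2⟩ := M_moment hMr hC₀ hc₀ hy₀ hθ0 (by linarith)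
  obtain ⟨zM, hzM0, hMain⟩ := main_moment hW hC₀ hc₀ hy₀ hθ0 (by linarith) hη₁0 (by linarith)
    hθη
  obtain ⟨zF, hzF0, hfirst⟩ := hfirst θ η₁ hθ0 (by linarith) hθη hη₁0 (by linarith)
  obtain ⟨C1, hC1, hhx⟩ := hx_bound n
  obtain ⟨C2, hC2, hh1⟩ := h1_bound n
  obtain ⟨Cs, hCs, hstrip⟩ := strip_sum hS
  set Cn := max C1 C2 with hCn
  have hCn1 : 1 ≤ Cn := le_max_of_le_left hC1
  obtain ⟨z, hz0, z1, z2, z3, z4, z5, z6⟩ : ∃ z : ℝ, 0 < z ∧ z ≤ zB ∧ z ≤ zW ∧ z ≤ zR ∧ z ≤ zM ∧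
      z ≤ zF ∧ z ≤ (c₁ / (48 * (Cw * Cn))) ^ 2 := by
    refine ⟨min (min (min zB zW) (min zR zM)) (min zF ((c₁ / (48 * (Cw * Cn))) ^ 2)),
      by positivity, (min_le_left _ _).trans ((min_le_left _ _).trans (min_le_left _ _)),
      (min_le_left _ _).trans ((min_le_left _ _).trans (min_le_right _ _)),
      (min_le_left _ _).trans ((min_le_right _ _).trans (min_le_left _ _)),
      (min_le_left _ _).trans ((min_le_right _ _).trans (min_le_right _ _)),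
      (min_le_right _ _).trans (min_le_left _ _), (min_le_right _ _).trans (min_le_right _ _)⟩
  obtain ⟨L₀, hBlk⟩ := hBlk z hz0 z1
  obtain ⟨Y₁, hwin⟩ := hwin z hz0 z2
  obtain ⟨Y₂, hMr2⟩ := hMr2 z hz0 z3
  obtain ⟨Cm, Y₃, hCm, hMain⟩ := hMain z hz0 z4
  obtain ⟨Y₄, hfirst⟩ := hfirst z hz0 z5
  set ε : ℝ := z ^ (1 - η₁) with hε
  have hε0 : 0 < ε := by positivity
  have hε1 : ε ≤ 1 / 2 := by
    calc z ^ (1 - η₁) ≤ (1 / 4 : ℝ) ^ (1 - η₁) :=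
          Real.rpow_le_rpow hz0.le (z2.trans hzW4) (by linarith)
      _ ≤ (1 / 4 : ℝ) ^ (1 / 2 : ℝ) :=
          Real.rpow_le_rpow_of_exponent_ge (by norm_num) (by norm_num) (by linarith)
      _ = 1 / 2 := by
          rw [show (1 / 4 : ℝ) = (1 / 2) ^ (2 : ℝ) by norm_num, ← Real.rpow_mul (by norm_num)]
          norm_num
  have hzc : 12 * (Cw * Cn) * z ^ (1 / 2 : ℝ) ≤ c₁ / 4 := by
    have h1 : z ^ (1 / 2 : ℝ) ≤ c₁ / (48 * (Cw * Cn)) := by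
      calc z ^ (1 / 2 : ℝ) ≤ ((c₁ / (48 * (Cw * Cn))) ^ 2) ^ (1 / 2 : ℝ) := by gcongr
        _ = c₁ / (48 * (Cw * Cn)) := by
            rw [← Real.rpow_natCast, ← Real.rpow_mul (by positivity)]; norm_num
    calc 12 * (Cw * Cn) * z ^ (1 / 2 : ℝ) ≤ 12 * (Cw * Cn) * (c₁ / (48 * (Cw * Cn))) := by gcongr
      _ = c₁ / 4 := by field_simp; norm_num
  set a : ℝ := |Real.log (√q₀)| + Real.log 2 with ha
  have ha0 : 0 ≤ a := by positivity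
  obtain ⟨Y₅, hev⟩ := eventually_atTop.1 (ev_cond (a := a) (L₀ := L₀) hε0 hc₁ (√(Cr * Cs))
    (4 * a * (Cw * Cn * z ^ (1 / 2 : ℝ))) (a * √(2 * Cm)) (√(2 * Cr) * (Th.C0 * (1 + a))))
  refine ⟨c₁ ^ 2 / (4 * (Cm + 1)), by positivity,
    max (max (max Y₁ Y₂) (max Y₃ Y₄)) (max Y₅ 3), fun Y hY => ?_⟩
  have y1 : Y₁ ≤ Y := ((le_max_left _ _).trans ((le_max_left _ _).trans (le_max_left _ _))).trans hY
  have y2 : Y₂ ≤ Y := ((le_max_right _ _).trans ((le_max_left _ _).trans (le_max_left _ _))).trans hY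
  have y3 : Y₃ ≤ Y := ((le_max_left _ _).trans ((le_max_right _ _).trans (le_max_left _ _))).trans hY
  have y4 : Y₄ ≤ Y := ((le_max_right _ _).trans ((le_max_right _ _).trans (le_max_left _ _))).trans hY
  have y5 : Y₅ ≤ Y := ((le_max_left _ _).trans (le_max_right _ _)).trans hY
  have y6 : 3 ≤ Y := ((le_max_right _ _).trans (le_max_right _ _)).trans hY
  obtain ⟨⟨hL1, hLL₀⟩, ⟨hR1, hR3⟩, hεL, herr⟩ := hev Y y5
  have hL0 : 0 < Real.log Y := by linarith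
  have hY0 : (0 : ℝ) < Y := by exact_mod_cast (by omega : 0 < Y)
  obtain ⟨S, c, hOK⟩ := hBlk (Real.log Y) hLL₀
  obtain ⟨R, J, hJ, hRl, hRu⟩ := exists_scale (L := Real.log Y) (ε := ε) hL0 hεL
  have hRmax : max 1 a ≤ R := hR1.trans hRl
  have hRa : R + a ≤ Real.log Y ^ (1 / 100 : ℝ) := by
    have h7 : a ≤ Real.log Y ^ (1 / 100 : ℝ) / 4 := (le_max_right _ _).trans hR1
    have h8 : 0 ≤ Real.log Y ^ (1 / 100 : ℝ) := by positivity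
    linarith
  have hTfe := tb_fe hq₀ hfe (Y := Y) y6
  obtain ⟨hmn, hmo⟩ := hMain Y S c y3 hOK
  have hst := hstrip Y R a (fun m => Real.log (√(q₀ * (m : ℝ) ^ 2) / Y)) (TB σ N Y) y6
    ((le_max_left _ _).trans hRmax) ha0 ((le_max_right _ _).trans hRmax) hRa (tb_sub σ N Y)
    (fun m hm => (hTfe m hm).2.1)
  have hbad := bad_le (Y := Y) (n := n) (J := J) (ε := ε) (ζ := z ^ (1 / 2 : ℝ)) (R := R) (a := a)
    (Cw := Cw) (Cn := Cn) (Cr := Cr) (Cm := Cm) (Cs := Cs) (q := fun m => q₀ * (m : ℝ) ^ 2)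
    (T := TB σ N Y) (M := fun m => Mh S c 0 (nb θ z (Real.log Y) + 1) m)
    y6 hL1 hε0 (by linarith) (by positivity) ((le_max_left _ _).trans hRmax) hRu
    (hR3.trans hRl) hJ ha0 ((le_max_right _ _).trans hRmax) (by linarith) (by linarith) hCr hCm
    (by linarith) (tb_sub σ N Y) hTfe
    (fun w b h h1 h2 h3 h4 h5 h6 => hwin Y S c y1 hOK w b h h1 h2 h3 h4 h5 h6)
    (fun w L hw hL i hi x => (hhx w L hw hL i hi x).trans (by
      gcongr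
      exact le_max_left _ _))
    (fun w hw i hi x => (hh1 w hw i hi x).trans (by
      gcongr
      exact le_max_right _ _))
    (hMr2 Y S c y2 hOK) hmo hst
  refine good_fixed y6 hc₁ hCm hmn (hfirst Y S c y4 hOK) ((le_abs_self _).trans (hbad.trans ?_))
  calc 12 * (Cw * Cn) * z ^ (1 / 2 : ℝ) * Y + Y * (
      √(Cr * Cs) * Real.log Y ^ (-(1 / 50) : ℝ) + 4 * a * (Cw * Cn * z ^ (1 / 2 : ℝ)) *
        Real.log Y ^ (-(1 / 8) : ℝ) + a * √(2 * Cm) * (Real.log Y)⁻¹ +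
      √(2 * Cr) * (Th.C0 * (1 + a)) * ((Y : ℝ) ^ 2 * Real.exp (-√(Y : ℝ)))) ≤
        c₁ / 4 * Y + Y * (c₁ / 4) := by gcongr
    _ = _ := by ring

end Fin
end P004E
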