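import Vale.Agent.P004E.H503.Dec

/-!
# P004E: the strip functional
-/

open Real MeasureTheory Set Filter
open scoped ENNReal Topology ContDiff

namespace P004E
namespace Fin

open P004G P004G.Asm
open P004.Asm (ηf_nonneg ηf_le_one ηf_zero ηf_one ηf_cont)

/-! ### smooth functions of two variables -/

lemma param_deriv {K : ℝ × ℝ → ℝ} (hK : ContDiff ℝ ∞ K) (i : ℕ) :
    ∃ Ki : ℝ × ℝ → ℝ, ContDiff ℝ ∞ Ki ∧
      ∀ s t, iteratedDeriv i (fun t => K (s, t)) t = Ki (s, t) := by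
  induction i with
  | zero => exact ⟨K, hK, fun s t => by simp⟩
  | succ i ih =>
    obtain ⟨Ki, hKi, h⟩ := ih
    refine ⟨fun p => fderiv ℝ Ki p (0, 1), ?_, fun s t => ?_⟩
    · exact (hKi.fderiv_right (m := ∞) le_rfl).clm_apply contDiff_const
    · rw [iteratedDeriv_succ]
      have e : iteratedDeriv i (fun t => K (s, t)) = fun t => Ki (s, t) := funext (h s)
      rw [e]
      have h1 : HasFDerivAt Ki (fderiv ℝ Ki (s, t)) (s, t) :=
        (hKi.differentiable (by simp)).differentiableAt.hasFDerivAt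
      have h2 : HasDerivAt (fun t : ℝ => (s, t)) ((0 : ℝ), (1 : ℝ)) t :=
        (hasDerivAt_const t s).prodMk (hasDerivAt_id t)
      exact (h1.comp_hasDerivAt t h2).deriv

/-- uniform bounds for the derivatives of a family of compactly supported functions -/
lemma param_bound {K : ℝ × ℝ → ℝ} (hK : ContDiff ℝ ∞ K)
    (hsupp : ∀ σ t, |σ| ≤ 1 → 4 < |t| → K (σ, t) = 0) (n : ℕ) :
    ∃ C : ℝ, 1 ≤ C ∧ ∀ σ, |σ| ≤ 1 → ∀ i ≤ n, ∀ t, |iteratedDeriv i (fun t => K (σ, t)) t| ≤ C := by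
  have h1 : ∀ i : ℕ, ∃ C : ℝ, 1 ≤ C ∧ ∀ σ, |σ| ≤ 1 → ∀ t,
      |iteratedDeriv i (fun t => K (σ, t)) t| ≤ C := by
    intro i
    obtain ⟨Ki, hKi, h⟩ := param_deriv hK i
    have hc : IsCompact (Icc (-1 : ℝ) 1 ×ˢ Icc (-4 : ℝ) 4) := isCompact_Icc.prod isCompact_Icc
    obtain ⟨C, hC⟩ := hc.exists_bound_of_continuousOn hKi.continuous.continuousOn
    refine ⟨max 1 C, le_max_left _ _, fun σ hσ t => ?_⟩
    by_cases ht : |t| ≤ 4
    · rw [h]
      exact (hC _ ⟨abs_le.1 hσ, abs_le.1 ht⟩).trans (le_max_right _ _)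
    · push Not at ht
      have e : (fun t => K (σ, t)) =ᶠ[𝓝 t] fun _ => 0 := by
        have ho : IsOpen {t : ℝ | 4 < |t|} := isOpen_lt continuous_const continuous_abs
        filter_upwards [ho.mem_nhds ht] with t' ht'
        exact hsupp σ t' hσ ht'
      rw [e.iteratedDeriv_eq]
      have : iteratedDeriv i (fun _ : ℝ => (0 : ℝ)) t = 0 := by
        rw [iteratedDeriv_const]; split_ifs <;> rfl
      rw [this, abs_zero]
      exact zero_le_one.trans (le_max_left _ _)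
  choose C hC h using h1
  refine ⟨∑ i ∈ Finset.range (n + 1), C i, ?_, fun σ hσ i hi t => ?_⟩
  · calc (1 : ℝ) ≤ C 0 := hC 0
      _ ≤ ∑ i ∈ Finset.range (n + 1), C i := Finset.single_le_sum
          (f := C) (fun i _ => zero_le_one.trans (hC i)) (by simp)
  · refine (h i σ hσ t).trans ?_
    exact Finset.single_le_sum (f := C) (fun i _ => zero_le_one.trans (hC i))
      (by simp; omega)

/-! ### the kernel -/

/-- the scaled kernel -/
noncomputable def K0 (p : ℝ × ℝ) : ℝ := (p.2 + p.1) * ((1 - ηf p.2) * (1 - ηf (-2 * p.1 - p.2)))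

lemma ηf_smooth : ContDiff ℝ ∞ ηf := by
  unfold P004.ηf
  exact Real.smoothTransition.contDiff.comp (contDiff_id.sub contDiff_const)

lemma K0_smooth : ContDiff ℝ ∞ K0 := by
  unfold K0
  have h1 : ContDiff ℝ ∞ (fun p : ℝ × ℝ => ηf p.2) := ηf_smooth.comp contDiff_snd
  have h2 : ContDiff ℝ ∞ (fun p : ℝ × ℝ => ηf (-2 * p.1 - p.2)) :=
    ηf_smooth.comp ((contDiff_const.mul contDiff_fst).sub contDiff_snd)
  exact (contDiff_snd.add contDiff_fst).mul ((contDiff_const.sub h1).mul (contDiff_const.sub h2))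

/-- the derivative in the first variable -/
noncomputable def D0 (p : ℝ × ℝ) : ℝ := fderiv ℝ K0 p (1, 0)

lemma D0_smooth : ContDiff ℝ ∞ D0 :=
  (K0_smooth.fderiv_right (m := ∞) le_rfl).clm_apply contDiff_const

lemma K0_zero {σ t : ℝ} (h : 2 < t ∨ t < -2 * σ - 2) : K0 (σ, t) = 0 := by
  unfold K0
  rcases h with h | h
  · simp only
    rw [ηf_one (t := t) h.le]
    ring
  · simp only
    rw [ηf_one (t := -2 * σ - t) (by linarith)]
    ring

lemma D0_zero {σ t : ℝ} (h : 2 < t ∨ t < -2 * σ - 2) : D0 (σ, t) = 0 := by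
  unfold D0
  have e : K0 =ᶠ[𝓝 (σ, t)] fun _ => 0 := by
    have ho : IsOpen {p : ℝ × ℝ | 2 < p.2 ∨ p.2 < -2 * p.1 - 2} := by
      refine IsOpen.union ?_ ?_
      · exact isOpen_lt continuous_const continuous_snd
      · exact isOpen_lt continuous_snd (by fun_prop)
    filter_upwards [ho.mem_nhds (show (σ, t) ∈ {p : ℝ × ℝ | 2 < p.2 ∨ p.2 < -2 * p.1 - 2} from h)]
      with p hp
    exact K0_zero hp
  rw [e.fderiv_eq]
  simp

lemma far_zero {σ t : ℝ} (hσ : |σ| ≤ 1) (ht : 4 < |t|) : 2 < t ∨ t < -2 * σ - 2 := by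
  obtain ⟨h1, h2⟩ := abs_le.1 hσ
  rcases lt_abs.1 ht with h | h
  · left; linarith
  · right; linarith

lemma ks_scale {R : ℝ} (hR : 0 < R) (s x : ℝ) : ks R s x = R * K0 (s / R, x / R) := by
  unfold ks K0
  simp only
  have e : -2 * (s / R) - x / R = (-2 * s - x) / R := by field_simp
  rw [e]
  field_simp

/-- the derivative of `ks` in `s` -/
noncomputable def dk (R s x : ℝ) : ℝ := D0 (s / R, x / R)

lemma hasDerivAt_ks {R : ℝ} (hR : 0 < R) (s x : ℝ) :
    HasDerivAt (fun s => ks R s x) (dk R s x) s := by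
  have e : (fun s => ks R s x) = fun s => R * K0 (s / R, x / R) := funext fun s => ks_scale hR s x
  rw [e]
  have h1 : HasFDerivAt K0 (fderiv ℝ K0 (s / R, x / R)) (s / R, x / R) :=
    (K0_smooth.differentiable (by simp)).differentiableAt.hasFDerivAt
  have h2 : HasDerivAt (fun s : ℝ => (s / R, x / R)) (1 / R, (0 : ℝ)) s :=
    ((hasDerivAt_id s).div_const R).prodMk (hasDerivAt_const s (x / R))
  have h3 := (h1.comp_hasDerivAt s h2).const_mul R
  have e2 : R * (fderiv ℝ K0 (s / R, x / R)) (1 / R, 0) = dk R s x := by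
    unfold dk D0
    have : ((1 / R : ℝ), (0 : ℝ)) = (1 / R : ℝ) • ((1 : ℝ), (0 : ℝ)) := by simp
    rw [this, map_smul, smul_eq_mul]
    field_simp
  rw [← e2]
  exact h3

lemma dk_cont {R : ℝ} : Continuous (fun p : ℝ × ℝ => dk R p.1 p.2) := by
  unfold dk
  exact D0_smooth.continuous.comp
    ((continuous_fst.div_const _).prodMk (continuous_snd.div_const _))

lemma dk_supp {R s x : ℝ} (hR : 0 < R) (h : dk R s x ≠ 0) : -2 * s - 2 * R ≤ x ∧ x ≤ 2 * R := by
  by_contra hc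
  apply h
  unfold dk
  apply D0_zero
  rw [not_and_or] at hc
  rcases hc with hc | hc
  · right
    push Not at hc
    have : x / R < (-2 * s - 2 * R) / R := div_lt_div_of_pos_right hc hR
    have e : (-2 * s - 2 * R) / R = -2 * (s / R) - 2 := by field_simp
    linarith
  · left
    push Not at hc
    rw [lt_div_iff₀ hR]
    exact hc

lemma scale_iter {f : ℝ → ℝ} {n : ℕ} (hf : ContDiff ℝ n f) {R : ℝ} {i : ℕ} (hi : i ≤ n) (x : ℝ) :
    iteratedDeriv i (fun x => f (x / R)) x = R⁻¹ ^ i * iteratedDeriv i f (x / R) := by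
  have h := iteratedDeriv_comp_const_mul (hf.of_le (by exact_mod_cast hi)) R⁻¹
  have e : (fun x => f (x / R)) = fun x => f (R⁻¹ * x) := by
    funext x; rw [div_eq_inv_mul]
  rw [e, h, div_eq_inv_mul]

lemma sec_smooth {K : ℝ × ℝ → ℝ} (hK : ContDiff ℝ ∞ K) (σ : ℝ) :
    ContDiff ℝ ∞ (fun t => K (σ, t)) := hK.comp (contDiff_const.prodMk contDiff_id)

lemma fam_bound {K : ℝ × ℝ → ℝ} (hK : ContDiff ℝ ∞ K)
    (hsupp : ∀ σ t, |σ| ≤ 1 → 4 < |t| → K (σ, t) = 0) (n : ℕ) :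
    ∃ C : ℝ, 1 ≤ C ∧ ∀ R s : ℝ, 1 ≤ R → |s| ≤ R → ∀ i ≤ n, ∀ x,
      |iteratedDeriv i (fun x => K (s / R, x / R)) x| ≤ C := by
  obtain ⟨C, hC, h⟩ := param_bound hK hsupp n
  refine ⟨C, hC, fun R s hR hs i hi x => ?_⟩
  have hR0 : 0 < R := by linarith
  have hσ : |s / R| ≤ 1 := by
    rw [abs_div, abs_of_pos hR0, div_le_one hR0]; exact hs
  rw [scale_iter (f := fun t => K (s / R, t)) (n := n) ((sec_smooth hK _).of_le (by
    exact_mod_cast le_top)) hi x, abs_mul, abs_pow, abs_of_pos (inv_pos.2 hR0)]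
  calc R⁻¹ ^ i * |iteratedDeriv i (fun t => K (s / R, t)) (x / R)|
      ≤ 1 * C := by
        refine mul_le_mul (pow_le_one₀ (by positivity) (inv_le_one_of_one_le₀ hR))
          (h _ hσ i hi _) (abs_nonneg _) zero_le_one
    _ = C := one_mul C

lemma ks_bound (n : ℕ) : ∃ C : ℝ, 1 ≤ C ∧ ∀ R s : ℝ, 1 ≤ R → |s| ≤ R → ∀ i ≤ n, ∀ x,
    |iteratedDeriv i (ks R s) x| ≤ C * R := by
  obtain ⟨C, hC, h⟩ := fam_bound K0_smooth
    (fun σ t hσ ht => K0_zero (far_zero hσ ht)) n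
  refine ⟨C, hC, fun R s hR hs i hi x => ?_⟩
  have hR0 : 0 < R := by linarith
  have e : ks R s = fun x => R * (fun x => K0 (s / R, x / R)) x :=
    funext fun x => ks_scale hR0 s x
  rw [e, iteratedDeriv_const_mul_field, abs_mul, abs_of_pos hR0, mul_comm]
  exact mul_le_mul_of_nonneg_right (h R s hR hs i hi x) hR0.le

lemma dk_bound (n : ℕ) : ∃ C : ℝ, 1 ≤ C ∧ ∀ R s : ℝ, 1 ≤ R → |s| ≤ R → ∀ i ≤ n, ∀ x,
    |iteratedDeriv i (dk R s) x| ≤ C := by
  exact fam_bound D0_smooth (fun σ t hσ ht => D0_zero (far_zero hσ ht)) n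

lemma ks_smooth {R : ℝ} (hR : 0 < R) (s : ℝ) (n : ℕ) : ContDiff ℝ n (ks R s) := by
  have e : ks R s = fun x => R * (fun x => K0 (s / R, x / R)) x :=
    funext fun x => ks_scale hR s x
  rw [e]
  refine contDiff_const.mul ?_
  refine (K0_smooth.of_le (by exact_mod_cast le_top)).comp ?_
  exact contDiff_const.prodMk (contDiff_id.div_const R)

lemma dk_smooth {R : ℝ} (s : ℝ) (n : ℕ) : ContDiff ℝ n (dk R s) := by
  unfold dk
  refine (D0_smooth.of_le (by exact_mod_cast le_top)).comp ?_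
  exact contDiff_const.prodMk (contDiff_id.div_const R)

/-! ### Sobolev inequality in the parameter -/

lemma sq_integral_le {G : ℝ → ℝ} (hG : Continuous G) {a b : ℝ} (hab : a ≤ b) :
    (∫ s in a..b, G s) ^ 2 ≤ (b - a) * ∫ s in a..b, G s ^ 2 := by
  rcases hab.eq_or_lt with rfl | h
  · simp
  have hl : 0 < b - a := by linarith
  set I := ∫ s in a..b, G s with hI
  set c := I / (b - a) with hc
  have h0 : 0 ≤ ∫ s in a..b, (G s - c) ^ 2 :=
    intervalIntegral.integral_nonneg hab fun s _ => sq_nonneg _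
  have e : ∫ s in a..b, (G s - c) ^ 2 = (∫ s in a..b, G s ^ 2) - 2 * c * I + c ^ 2 * (b - a) := by
    have i1 : IntervalIntegrable (fun s => G s ^ 2) volume a b := (hG.pow 2).intervalIntegrable _ _
    have i2 : IntervalIntegrable (fun s => 2 * c * G s) volume a b :=
      (continuous_const.mul hG).intervalIntegrable _ _
    have i3 : IntervalIntegrable (fun _ : ℝ => c ^ 2) volume a b :=
      continuous_const.intervalIntegrable _ _
    have e1 : (fun s => (G s - c) ^ 2) = fun s => G s ^ 2 - 2 * c * G s + c ^ 2 := by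
      funext s; ring
    rw [e1, intervalIntegral.integral_add (i1.sub i2) i3, intervalIntegral.integral_sub i1 i2,
      intervalIntegral.integral_const_mul, intervalIntegral.integral_const, smul_eq_mul]
    ring
  rw [e] at h0
  have hcI : c * (b - a) = I := by rw [hc]; field_simp
  have h4 : c ^ 2 * (b - a) = c * I := by rw [← hcI]; ring
  have h2 : 0 ≤ (∫ s in a..b, G s ^ 2) - c * I := by linarith
  have h3 : c * I * (b - a) = I ^ 2 := by rw [← hcI]; ring
  nlinarith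

/-- `∫ Φ K_s - ∫ Φ K_{s₀} = ∫_{s₀}^s ∫ Φ ∂K` -/
lemma param_ftc {Φ : ℝ → ℝ} (hΦ : Continuous Φ) {K D : ℝ → ℝ → ℝ}
    (hD : Continuous (fun p : ℝ × ℝ => D p.1 p.2)) (hKc : ∀ s, Continuous (K s))
    (hK : ∀ s x, HasDerivAt (fun s => K s x) (D s x) s) (c s₀ s : ℝ) (hs : s₀ ≤ s) :
    (∫ x in Icc (-c) c, Φ x * K s x) - ∫ x in Icc (-c) c, Φ x * K s₀ x =
      ∫ t in s₀..s, ∫ x in Icc (-c) c, Φ x * D t x := by
  have h1 : ∀ x, K s x - K s₀ x = ∫ t in s₀..s, D t x := by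
    intro x
    symm
    apply intervalIntegral.integral_eq_sub_of_hasDerivAt (fun t _ => hK t x)
    exact (hD.comp (continuous_id.prodMk continuous_const)).intervalIntegrable _ _
  have i1 : IntegrableOn (fun x => Φ x * K s x) (Icc (-c) c) :=
    (hΦ.mul (hKc s)).continuousOn.integrableOn_compact isCompact_Icc
  have i2 : IntegrableOn (fun x => Φ x * K s₀ x) (Icc (-c) c) :=
    (hΦ.mul (hKc s₀)).continuousOn.integrableOn_compact isCompact_Icc
  rw [← integral_sub i1 i2]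
  have h2 : ∀ x, Φ x * K s x - Φ x * K s₀ x = ∫ t in Ioc s₀ s, Φ x * D t x := by
    intro x
    rw [← mul_sub, h1 x, intervalIntegral.integral_of_le hs, ← integral_const_mul]
  simp_rw [h2]
  rw [intervalIntegral.integral_of_le hs]
  apply integral_integral_swap
  have hcont : Continuous (fun p : ℝ × ℝ => Φ p.1 * D p.2 p.1) :=
    (hΦ.comp continuous_fst).mul (hD.comp (continuous_snd.prodMk continuous_fst))
  have h3 : IntegrableOn (fun p : ℝ × ℝ => Φ p.1 * D p.2 p.1) (Icc (-c) c ×ˢ Icc s₀ s)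
      (volume.prod volume) :=
    hcont.continuousOn.integrableOn_compact (isCompact_Icc.prod isCompact_Icc)
  have h4 := h3.mono_set (prod_mono_right (Ioc_subset_Icc_self (a := s₀) (b := s)) :
    Icc (-c) c ×ˢ Ioc s₀ s ⊆ Icc (-c) c ×ˢ Icc s₀ s)
  unfold IntegrableOn at h4
  rwa [← Measure.prod_restrict] at h4

lemma sobolev {Φ : ℝ → ℝ} (hΦ : Continuous Φ) {K D : ℝ → ℝ → ℝ}
    (hD : Continuous (fun p : ℝ × ℝ => D p.1 p.2)) (hKc : ∀ s, Continuous (K s))
    (hK : ∀ s x, HasDerivAt (fun s => K s x) (D s x) s) {a s : ℝ} (c : ℝ) (h1 : -a ≤ s)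
    (h2 : s ≤ a) :
    (∫ x in Icc (-c) c, Φ x * K s x) ^ 2 ≤ 2 * (∫ x in Icc (-c) c, Φ x * K (-a) x) ^ 2 +
      4 * a * ∫ t in (-a)..a, (∫ x in Icc (-c) c, Φ x * D t x) ^ 2 := by
  have hG : Continuous (fun t => ∫ x in Icc (-c) c, Φ x * D t x) := by
    have := continuous_parametric_integral_of_continuous (μ := (volume : Measure ℝ))
      (f := fun t x => Φ x * D t x) (s := Icc (-c) c)
      ((hΦ.comp continuous_snd).mul hD) isCompact_Icc
    exact this
  have h3 := param_ftc hΦ hD hKc hK c (-a) s h1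
  have h4 := sq_integral_le hG h1
  have h5 : ∫ t in (-a)..s, (∫ x in Icc (-c) c, Φ x * D t x) ^ 2 ≤
      ∫ t in (-a)..a, (∫ x in Icc (-c) c, Φ x * D t x) ^ 2 := by
    apply intervalIntegral.integral_mono_interval le_rfl h1 h2
    · exact Eventually.of_forall fun t => sq_nonneg _
    · exact (hG.pow 2).intervalIntegrable _ _
  have h6 : 0 ≤ ∫ t in (-a)..s, (∫ x in Icc (-c) c, Φ x * D t x) ^ 2 :=
    intervalIntegral.integral_nonneg h1 fun _ _ => sq_nonneg _
  set A := ∫ x in Icc (-c) c, Φ x * K s x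
  set B := ∫ x in Icc (-c) c, Φ x * K (-a) x
  set I := ∫ t in (-a)..s, ∫ x in Icc (-c) c, Φ x * D t x
  have h7 : I ^ 2 ≤ 2 * a * ∫ t in (-a)..a, (∫ x in Icc (-c) c, Φ x * D t x) ^ 2 := by
    refine h4.trans ?_
    refine mul_le_mul (by linarith) h5 h6 (by linarith)
  have h8 : A = B + I := by linarith
  rw [h8]
  nlinarith [sq_nonneg (B - I)]

end Fin
end P004E
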