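import Vale.Agent.P004E.H503.Dec2
import Vale.Agent.P004G.H503.AsmD

/-!
# P004E: the tail
-/

open Real MeasureTheory Set Filter
open scoped ENNReal Topology ContDiff

namespace P004E
namespace Fin

open P004G P004G.Asm
open P004.Asm (ηf_nonneg ηf_le_one ηf_zero ηf_one ηf_cont)

variable [Crv]

lemma ht_le (m : ℤ) {Y : ℕ} (hY : 3 ≤ Y) {s a : ℝ} (hs : |s| ≤ a) :
    |Fw Y (ht Y s) m| ≤ Th.C0 * (1 + a) * Y * Real.exp (-√(Y : ℝ)) := by
  have h0 : (0 : ℝ) < Y := by exact_mod_cast (by omega : 0 < Y)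
  have hY3 : (3 : ℝ) ≤ Y := by exact_mod_cast hY
  have hL1 : 1 ≤ Real.log Y := by
    rw [Real.le_log_iff_exp_le h0]
    linarith [Real.exp_one_lt_d9]
  have hL : 0 < Real.log Y := by linarith
  have hC0 := Th.C0_nonneg
  have ha : 0 ≤ a := (abs_nonneg s).trans hs
  set Bd := Th.C0 * (1 + a) * Y * Real.exp (-√(Y : ℝ)) with hBd
  have hBd0 : 0 ≤ Bd := by positivity
  have h1 : ∀ u ∈ Ioi (0 : ℝ), |theta m u * ht Y s (Real.log (u * Y))| ≤ Bd * Real.exp (-u) := by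
    intro u hu
    have hu0 : 0 < u := hu
    by_cases hu2 : Real.log (u * Y) ≤ 3 / 2 * Real.log Y
    · have h5 : ηf (Real.log (u * Y) / (3 / 2 * Real.log Y)) = 0 := by
        apply ηf_zero
        rw [div_le_one (by positivity)]; exact hu2
      unfold ht
      rw [h5, mul_zero, mul_zero, abs_zero]
      positivity
    · push Not at hu2
      set x := Real.log (u * Y) with hx
      have hx0 : 0 < x := by
        have : 0 < 3 / 2 * Real.log Y := by positivity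
        linarith
      have hu3 : √(Y : ℝ) ≤ u := by
        have h7 : (1 / 2) * Real.log Y < Real.log u := by
          rw [hx, Real.log_mul hu0.ne' h0.ne'] at hu2
          linarith
        have h8 : Real.log (√(Y : ℝ)) < Real.log u := by
          rw [Real.log_sqrt h0.le]; linarith
        exact ((Real.log_lt_log_iff (by positivity) hu0).1 h8).le
      have hY1 : 1 ≤ √(Y : ℝ) := by rw [Real.one_le_sqrt]; linarith
      have hu1 : 1 ≤ u := hY1.trans hu3
      have huY : 1 ≤ u * Y := by nlinarith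
      have hxu : x ≤ u * Y := by
        have := Real.log_le_sub_one_of_pos (show 0 < u * Y by positivity)
        linarith
      have h2 : |ht Y s x| ≤ (1 + a) * (u * Y) := by
        unfold ht
        rw [abs_mul, abs_div, abs_of_pos hL]
        have e1 : |ηf (x / (3 / 2 * Real.log Y))| ≤ 1 := ηf_abs _
        have e2 : |x + s| ≤ u * Y + a := by
          calc |x + s| ≤ |x| + |s| := abs_add_le _ _
            _ ≤ u * Y + a := by rw [abs_of_pos hx0]; gcongr
        have e3 : |x + s| / Real.log Y ≤ |x + s| := div_le_self (abs_nonneg _) hL1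
        calc |x + s| / Real.log Y * |ηf (x / (3 / 2 * Real.log Y))| ≤ |x + s| * 1 := by gcongr
          _ ≤ u * Y + a := by rw [mul_one]; exact e2
          _ ≤ (1 + a) * (u * Y) := by nlinarith
      have h7 := Th.theta_le m hu1
      have h8 : Real.exp (-Real.pi * u) * u ≤ Real.exp (-√(Y : ℝ)) * Real.exp (-u) := by
        have h9 : u ≤ Real.exp u := by linarith [Real.add_one_le_exp u]
        calc Real.exp (-Real.pi * u) * u ≤ Real.exp (-Real.pi * u) * Real.exp u := by gcongr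
          _ = Real.exp (-Real.pi * u + u) := by rw [Real.exp_add]
          _ ≤ Real.exp (-√(Y : ℝ) + -u) := by
            rw [Real.exp_le_exp]
            nlinarith [Real.pi_gt_three]
          _ = _ := by rw [Real.exp_add]
      rw [abs_mul]
      calc |theta m u| * |ht Y s x| ≤ (Th.C0 * Real.exp (-Real.pi * u)) * ((1 + a) * (u * Y)) := by
            gcongr
        _ = Th.C0 * (1 + a) * Y * (Real.exp (-Real.pi * u) * u) := by ring
        _ ≤ Th.C0 * (1 + a) * Y * (Real.exp (-√(Y : ℝ)) * Real.exp (-u)) := by gcongr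
        _ = Bd * Real.exp (-u) := by rw [hBd]; ring
  have i3 : IntegrableOn (fun u => Bd * Real.exp (-u)) (Ioi (0 : ℝ)) :=
    ((integrableOn_exp_neg_Ioi 0)).const_mul Bd
  unfold Fw Fn P004.cfY
  rw [← Real.norm_eq_abs]
  refine (norm_integral_le_of_norm_le i3 ?_).trans ?_
  · filter_upwards [ae_restrict_mem measurableSet_Ioi] with u hu
    rw [Real.norm_eq_abs]
    exact h1 u hu
  · rw [integral_const_mul, integral_exp_neg_Ioi]
    simp

/-- choice of the dyadic scale -/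
lemma exists_scale {L ε : ℝ} (hL : 0 < L) (h1 : L ^ (1 / 100 : ℝ) / 2 ≤ ε * L) :
    ∃ (R : ℝ) (J : ℕ), 2 ^ J * R = ε * L ∧ L ^ (1 / 100 : ℝ) / 4 ≤ R ∧ R ≤ L ^ (1 / 100 : ℝ) / 2 := by
  set P := L ^ (1 / 100 : ℝ) with hP
  have hP0 : 0 < P := by positivity
  obtain ⟨n, hn1, hn2⟩ := exists_nat_pow_near (x := ε * L / (P / 2)) (y := (2 : ℝ))
    (by rw [le_div_iff₀ (by positivity)]; linarith) (by norm_num)
  rw [le_div_iff₀ (by positivity)] at hn1
  rw [div_lt_iff₀ (by positivity)] at hn2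
  have h2 : (0 : ℝ) < 2 ^ (n + 1) := by positivity
  refine ⟨ε * L / 2 ^ (n + 1), n + 1, by field_simp, ?_, ?_⟩
  · rw [le_div_iff₀ h2, pow_succ]
    linarith
  · rw [div_le_iff₀ h2]
    linarith

/-- geometric sums -/
lemma geom_up {r : ℝ} (hr : 1 < r) (J : ℕ) : ∑ i ∈ Finset.range J, r ^ i ≤ r ^ J / (r - 1) := by
  rw [geom_sum_eq hr.ne']
  gcongr
  · linarith


/-- the sum of the windows with the weight `x / L` -/
lemma sum_up {e T : ℝ} {J : ℕ} (hT : 0 < T) (hJ : 2 ^ J * T = e) (he : e ≤ 1) :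
    ∑ i ∈ Finset.range J, (2 ^ i * T) ^ (1 / 8 : ℝ) ≤ 12 := by
  set r : ℝ := 2 ^ (1 / 8 : ℝ) with hr
  have hr1 : 13 / 12 ≤ r := by
    have h : (13 / 12 : ℝ) = ((13 / 12 : ℝ) ^ (8 : ℝ)) ^ (1 / 8 : ℝ) := by
      rw [← Real.rpow_mul (by norm_num)]; norm_num
    rw [h, hr]
    apply Real.rpow_le_rpow (by positivity) _ (by norm_num)
    norm_num
  have e1 : ∀ i : ℕ, ((2 : ℝ) ^ i * T) ^ (1 / 8 : ℝ) = T ^ (1 / 8 : ℝ) * r ^ i := by
    intro i
    rw [Real.mul_rpow (by positivity) hT.le, ← Real.rpow_natCast 2 i, ← Real.rpow_mul (by norm_num),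
      hr, ← Real.rpow_natCast _ i, ← Real.rpow_mul (by norm_num), mul_comm (i : ℝ), mul_comm]
  simp_rw [e1]
  rw [← Finset.mul_sum]
  have h2 := geom_up (r := r) (by linarith) J
  have h3 : T ^ (1 / 8 : ℝ) * r ^ J = e ^ (1 / 8 : ℝ) := by rw [← e1, hJ]
  have h4 : e ^ (1 / 8 : ℝ) ≤ 1 := by
    apply Real.rpow_le_one _ he (by norm_num)
    rw [← hJ]; positivity
  calc T ^ (1 / 8 : ℝ) * ∑ i ∈ Finset.range J, r ^ i ≤ T ^ (1 / 8 : ℝ) * (r ^ J / (r - 1)) := by
        gcongr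
    _ = e ^ (1 / 8 : ℝ) / (r - 1) := by rw [← mul_div_assoc, h3]
    _ ≤ 1 / (1 / 12) := by gcongr; linarith
    _ = 12 := by norm_num

/-- the sum of the windows with the weight `1` -/
lemma sum_down {L R : ℝ} (hL : 0 < L) (hR : 1 ≤ R) (J : ℕ) :
    ∑ i ∈ Finset.range J, (2 ^ i * R / L) ^ (-(7 / 8) : ℝ) ≤ 4 * L ^ (7 / 8 : ℝ) := by
  have hR0 : 0 < R := by linarith
  have e1 : ∀ i : ℕ, ((2 : ℝ) ^ i * R / L) ^ (-(7 / 8) : ℝ) ≤ L ^ (7 / 8 : ℝ) * (3 / 4) ^ i := by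
    intro i
    rw [Real.rpow_neg (by positivity), ← Real.inv_rpow (by positivity), inv_div,
      Real.div_rpow hL.le (by positivity), div_eq_mul_inv]
    refine mul_le_mul_of_nonneg_left ?_ (by positivity)
    rw [← Real.inv_rpow (by positivity), mul_inv, ← inv_pow]
    have h1 : ((2 : ℝ)⁻¹ ^ i * R⁻¹) ^ (7 / 8 : ℝ) ≤ ((2 : ℝ)⁻¹ ^ i) ^ (7 / 8 : ℝ) := by
      apply Real.rpow_le_rpow (by positivity) _ (by norm_num)
      calc (2 : ℝ)⁻¹ ^ i * R⁻¹ ≤ (2 : ℝ)⁻¹ ^ i * 1 := by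
            gcongr
            exact inv_le_one_of_one_le₀ hR
        _ = _ := mul_one _
    refine h1.trans ?_
    have h2 : ((2 : ℝ)⁻¹ ^ i) ^ (7 / 8 : ℝ) = ((2 : ℝ)⁻¹ ^ (7 / 8 : ℝ)) ^ i := by
      rw [← Real.rpow_natCast (2⁻¹ : ℝ) i, ← Real.rpow_mul (by norm_num),
        ← Real.rpow_natCast _ i, ← Real.rpow_mul (by norm_num), mul_comm]
    rw [h2]
    apply pow_le_pow_left₀ (by positivity)
    have h3 : ((2 : ℝ)⁻¹) ^ (7 / 8 : ℝ) ≤ ((3 / 4 : ℝ) ^ (8 / 7 : ℝ)) ^ (7 / 8 : ℝ) := by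
      apply Real.rpow_le_rpow (by positivity) _ (by norm_num)
      calc (2 : ℝ)⁻¹ ≤ (3 / 4 : ℝ) ^ (2 : ℝ) := by norm_num
        _ ≤ (3 / 4 : ℝ) ^ (8 / 7 : ℝ) :=
          Real.rpow_le_rpow_of_exponent_ge (by norm_num) (by norm_num) (by norm_num)
    rw [← Real.rpow_mul (by norm_num)] at h3
    norm_num at h3 ⊢
    exact h3
  calc ∑ i ∈ Finset.range J, (2 ^ i * R / L) ^ (-(7 / 8) : ℝ)
      ≤ ∑ i ∈ Finset.range J, L ^ (7 / 8 : ℝ) * (3 / 4) ^ i :=
        Finset.sum_le_sum fun i _ => e1 i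
    _ = L ^ (7 / 8 : ℝ) * ∑ i ∈ Finset.range J, (3 / 4 : ℝ) ^ i := by rw [Finset.mul_sum]
    _ ≤ L ^ (7 / 8 : ℝ) * 4 := by
        gcongr
        calc ∑ i ∈ Finset.range J, (3 / 4 : ℝ) ^ i ≤ (1 - 3 / 4 : ℝ)⁻¹ := by
              rw [← tsum_geometric_of_lt_one (by norm_num) (by norm_num : (3 / 4 : ℝ) < 1)]
              exact (summable_geometric_of_lt_one (by norm_num) (by norm_num)).sum_le_tsum _
                (fun _ _ => by positivity)
          _ = 4 := by norm_num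
    _ = 4 * L ^ (7 / 8 : ℝ) := by ring

end Fin
end P004E
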