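import Vale.Agent.P004E.H503.Dec

/-!
# P004E: choice of the first block for a window; numerical inequalities
-/

open Real MeasureTheory Set Filter
open scoped ENNReal Topology

namespace P004E
namespace Fin

open P004G

lemma zi_pos {θ z : ℝ} (hz : 0 < z) (i : ℕ) : 0 < zi θ z i := by
  unfold zi; positivity

lemma zi_zero (θ z : ℝ) : zi θ z 0 = z := by
  unfold zi; simp

lemma zi_succ {θ z : ℝ} (hz : 0 < z) (i : ℕ) :
    zi θ z (i + 1) = zi θ z i ^ (1 + θ) := by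
  unfold zi
  rw [← Real.rpow_mul hz.le, pow_succ]

lemma zi_le_one {θ z : ℝ} (hθ : 0 ≤ θ) (hz : 0 < z) (hz1 : z ≤ 1) (i : ℕ) : zi θ z i ≤ 1 := by
  unfold zi
  exact Real.rpow_le_one hz.le hz1 (by positivity)

lemma zi_lt_one {θ z : ℝ} (hθ : 0 ≤ θ) (hz : 0 < z) (hz1 : z < 1) (i : ℕ) : zi θ z i < 1 := by
  unfold zi
  exact Real.rpow_lt_one hz.le hz1 (by positivity)

/-- `exp (η l_i) = z_i^{-ηθ}` -/
lemma exp_li {θ z η : ℝ} (hz : 0 < z) (i : ℕ) :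
    Real.exp (η * li θ z i) = zi θ z i ^ (-(η * θ)) := by
  have h := zi_pos (θ := θ) hz i
  unfold li
  rw [Real.rpow_def_of_pos h, Real.log_div one_ne_zero h.ne', Real.log_one]
  congr 1
  ring

/-- the threshold of block `i`: `z_i exp (η l_i) = z_i^{1-ηθ}` -/
lemma zi_exp {θ z η : ℝ} (hz : 0 < z) (i : ℕ) :
    zi θ z i * Real.exp (η * li θ z i) = zi θ z i ^ (1 - η * θ) := by
  have h := zi_pos (θ := θ) hz i
  rw [exp_li hz, sub_eq_add_neg, Real.rpow_add h, Real.rpow_one]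

lemma nb_spec {θ z L : ℝ} (hθ : 0 < θ) (hz : 0 < z) (hz1 : z < 1) (hL : 0 < L) :
    L * zi θ z (nb θ z L + 1) < 1 := by
  have hne : {n : ℕ | L * zi θ z (n + 1) < 1}.Nonempty := by
    have h1 : Tendsto (fun n : ℕ => ((1 + θ) ^ n : ℝ)) atTop atTop :=
      tendsto_pow_atTop_atTop_of_one_lt (by linarith)
    have h2 : Tendsto (fun n : ℕ => z ^ ((1 + θ) ^ n : ℝ)) atTop (𝓝 0) :=
      (tendsto_rpow_atTop_of_base_lt_one z (by linarith) hz1).comp h1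
    have h3 : Tendsto (fun n : ℕ => L * zi θ z (n + 1)) atTop (𝓝 0) := by
      have := (h2.comp (tendsto_add_atTop_nat 1)).const_mul L
      simpa [zi] using this
    obtain ⟨n, hn⟩ := (h3.eventually (gt_mem_nhds zero_lt_one)).exists
    exact ⟨n, hn⟩
  exact Nat.sInf_mem hne

/-- the last block is short -/
lemma last_le {θ z L η : ℝ} (hθ : 0 < θ) (hη0 : 0 ≤ η) (hη1 : η ≤ 1)
    (hz : 0 < z) (hz1 : z < 1) (hL : 1 ≤ L) (hθ1 : θ ≤ 1) :
    L * (zi θ z (nb θ z L) * Real.exp (η * li θ z (nb θ z L))) ≤ L ^ (2 * θ) := by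
  have hL0 : 0 < L := by linarith
  set y := zi θ z (nb θ z L) with hy
  have hy0 : 0 < y := zi_pos hz _
  have h1 := nb_spec hθ hz hz1 hL0
  rw [zi_succ hz, ← hy] at h1
  rw [zi_exp hz, ← hy]
  have h2 : y ^ (1 + θ) ≤ L ^ (-1 : ℝ) := by
    rw [Real.rpow_neg hL0.le, Real.rpow_one]
    rw [inv_eq_one_div, le_div_iff₀ hL0, mul_comm]
    exact h1.le
  have h3 : y ≤ L ^ (-(1 / (1 + θ))) := by
    have h4 := Real.rpow_le_rpow (by positivity) h2 (show 0 ≤ 1 / (1 + θ) by positivity)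
    rw [← Real.rpow_mul hy0.le, ← Real.rpow_mul hL0.le, mul_one_div_cancel (by positivity),
      Real.rpow_one] at h4
    refine h4.trans (le_of_eq ?_)
    congr 1
    ring
  have hηθ : η * θ ≤ 1 := by nlinarith
  have h5 : y ^ (1 - η * θ) ≤ L ^ (-(1 / (1 + θ)) * (1 - η * θ)) := by
    rw [Real.rpow_mul hL0.le]
    exact Real.rpow_le_rpow hy0.le h3 (by linarith)
  calc L * y ^ (1 - η * θ) ≤ L ^ (1 : ℝ) * L ^ (-(1 / (1 + θ)) * (1 - η * θ)) := by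
        rw [Real.rpow_one]; gcongr
    _ = L ^ (1 + -(1 / (1 + θ)) * (1 - η * θ)) := by rw [← Real.rpow_add hL0]
    _ ≤ L ^ (2 * θ) := by
        apply Real.rpow_le_rpow_of_exponent_le hL
        have : 1 + -(1 / (1 + θ)) * (1 - η * θ) = (θ + η * θ) / (1 + θ) := by
          field_simp; ring
        rw [this, div_le_iff₀ (by positivity)]
        nlinarith

/-- **choice of the first block** -/
lemma exists_i0 {θ z L η C₀ w : ℝ} (hθ : 0 < θ) (hθ1 : θ ≤ 1 / 10) (hη0 : 0 ≤ η) (hη1 : η ≤ 1)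
    (hz : 0 < z) (hz1 : z < 1) (hL : 1 ≤ L) (hC₀ : 1 ≤ C₀) (hw0 : 0 < w) (hwL : w ≤ L)
    (hw : 64 * C₀ * L ^ (2 * θ) ≤ w) :
    ∃ i₀ ≤ nb θ z L, 64 * C₀ * (L * zi θ z i₀) * Real.exp (η * li θ z i₀) ≤ w ∧
      (i₀ = 0 ∨ (w / L / (64 * C₀)) ^ (1 + 3 * θ) ≤ zi θ z i₀) := by
  classical
  have hL0 : 0 < L := by linarith
  have hex : ∃ i, 64 * C₀ * (L * zi θ z i) * Real.exp (η * li θ z i) ≤ w := by
    refine ⟨nb θ z L, ?_⟩
    have h1 := last_le hθ hη0 hη1 hz hz1 hL (by linarith)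
    calc 64 * C₀ * (L * zi θ z (nb θ z L)) * Real.exp (η * li θ z (nb θ z L))
        = 64 * C₀ * (L * (zi θ z (nb θ z L) * Real.exp (η * li θ z (nb θ z L)))) := by ring
      _ ≤ 64 * C₀ * L ^ (2 * θ) := by gcongr
      _ ≤ w := hw
  refine ⟨Nat.find hex, ?_, Nat.find_spec hex, ?_⟩
  · apply Nat.find_min' hex
    have h1 := last_le hθ hη0 hη1 hz hz1 hL (by linarith)
    calc 64 * C₀ * (L * zi θ z (nb θ z L)) * Real.exp (η * li θ z (nb θ z L))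
        = 64 * C₀ * (L * (zi θ z (nb θ z L) * Real.exp (η * li θ z (nb θ z L)))) := by ring
      _ ≤ 64 * C₀ * L ^ (2 * θ) := by gcongr
      _ ≤ w := hw
  · rcases Nat.eq_zero_or_pos (Nat.find hex) with h0 | h0
    · exact Or.inl h0
    · right
      obtain ⟨j, hj⟩ := Nat.exists_eq_succ_of_ne_zero h0.ne'
      have h1 : ¬ (64 * C₀ * (L * zi θ z j) * Real.exp (η * li θ z j) ≤ w) :=
        Nat.find_min hex (by omega)
      push Not at h1
      rw [hj, Nat.succ_eq_add_one, zi_succ hz]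
      set y := zi θ z j with hy
      have hy0 : 0 < y := zi_pos hz _
      have hy1 : y ≤ 1 := zi_le_one hθ.le hz hz1.le j
      have h2 : w / L / (64 * C₀) < y ^ (1 - η * θ) := by
        rw [← zi_exp hz, ← hy, div_div, div_lt_iff₀ (by positivity)]
        linarith
      set t := w / L / (64 * C₀) with ht
      have ht0 : 0 < t := by positivity
      have ht1 : t ≤ 1 := by
        rw [ht, div_div, div_le_one (by positivity)]
        nlinarith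
      have hηθ : η * θ ≤ 1 / 10 := by nlinarith
      have hpos : 0 < 1 - η * θ := by linarith
      calc t ^ (1 + 3 * θ) ≤ t ^ ((1 + θ) / (1 - η * θ)) := by
            apply Real.rpow_le_rpow_of_exponent_ge ht0 ht1
            rw [div_le_iff₀ hpos]
            nlinarith
        _ ≤ (y ^ (1 - η * θ)) ^ ((1 + θ) / (1 - η * θ)) :=
            Real.rpow_le_rpow ht0.le h2.le (by positivity)
        _ = y ^ (1 + θ) := by
            rw [← Real.rpow_mul hy0.le, mul_div_cancel₀ _ hpos.ne']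

/-- `1 + log (3/t) ≤ 34 t^{-1/16}` -/
lemma log_le_rpow {t : ℝ} (ht : 0 < t) (ht1 : t ≤ 1) :
    1 + Real.log (3 / t) ≤ 34 * t ^ (-(1 / 16) : ℝ) := by
  have h1 : Real.log (3 / t) = Real.log 3 + Real.log (1 / t) := by
    rw [Real.log_div (by norm_num) ht.ne', Real.log_div one_ne_zero ht.ne', Real.log_one]; ring
  have h2 : Real.log 3 ≤ 2 := by
    have := Real.log_le_sub_one_of_pos (show (0 : ℝ) < 3 by norm_num); linarith
  have h3 : (1 : ℝ) ≤ t ^ (-(1 / 16) : ℝ) := Real.one_le_rpow_of_pos_of_le_one_of_nonpos ht ht1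
    (by norm_num)
  have h4 : Real.log (1 / t) ≤ 16 * t ^ (-(1 / 16) : ℝ) := by
    have h5 : Real.log (t ^ (-(1 / 16) : ℝ)) ≤ t ^ (-(1 / 16) : ℝ) - 1 :=
      Real.log_le_sub_one_of_pos (by positivity)
    rw [Real.log_rpow ht] at h5
    rw [Real.log_div one_ne_zero ht.ne', Real.log_one]
    linarith
  rw [h1]
  linarith

/-- **the numerical inequality** -/
lemma num_ineq {A : ℕ} {θ η₁ z C₀ t y : ℝ} (hθ : 0 < θ) (hη₁ : 0 < η₁) (hη₁' : η₁ ≤ 1 / 10)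
    (hA : ((A : ℝ) + 1) * (η₁ + θ) ≤ 1 / 8) (hC₀ : 1 ≤ C₀) (hz : 0 < z) (hz1 : z ≤ 1) (ht : 0 < t)
    (ht1 : t ≤ z ^ (1 - η₁)) (hy : 0 < y) (hyz : y ≤ z)
    (hcase : (y = z ∧ z ≤ t) ∨ (t / (64 * C₀)) ^ (1 + 3 * θ) ≤ y) :
    (t / y) ^ A * (3 / t) ^ ((A : ℝ) * θ) * (1 + Real.log (3 / t)) *
      (z / y) ^ (1 + 2 * (1 / 20 : ℝ)) ≤
      (34 * 3 ^ A * (64 * C₀) ^ (2 * A + 4)) * z * t ^ (-(7 / 4) : ℝ) := by
  have ht1' : t ≤ 1 := ht1.trans (Real.rpow_le_one hz.le hz1 (by linarith))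
  have hA0 : (0 : ℝ) ≤ A := Nat.cast_nonneg A
  have hAθ : (A : ℝ) * θ ≤ 1 / 8 := by nlinarith
  have hθ8 : θ ≤ 1 / 8 := by nlinarith
  have h64 : (1 : ℝ) ≤ 64 * C₀ := by linarith
  have e3 : (3 / t) ^ ((A : ℝ) * θ) ≤ 3 ^ A * t ^ (-((A : ℝ) * θ)) := by
    rw [div_eq_mul_inv, Real.mul_rpow (by norm_num) (by positivity), Real.inv_rpow ht.le,
      ← Real.rpow_neg ht.le]
    gcongr
    calc (3 : ℝ) ^ ((A : ℝ) * θ) ≤ 3 ^ (A : ℝ) :=
          Real.rpow_le_rpow_of_exponent_le (by norm_num) (by nlinarith)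
      _ = 3 ^ A := Real.rpow_natCast 3 A
  have e4 := log_le_rpow ht ht1'
  have hlog0 : 0 ≤ 1 + Real.log (3 / t) := by
    have : 0 ≤ Real.log (3 / t) := Real.log_nonneg (by rw [le_div_iff₀ ht]; linarith)
    linarith
  rcases hcase with ⟨rfl, hzt⟩ | hcase
  · -- `y = z`
    rw [div_self hz.ne', Real.one_rpow, mul_one]
    have e1 : (t / y) ^ A ≤ y ^ (-((A : ℝ) * η₁)) := by
      have h1 : t / y ≤ y ^ (-η₁) := by
        rw [div_le_iff₀ hz]
        refine ht1.trans (le_of_eq ?_)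
        nth_rewrite 3 [← Real.rpow_one y]
        rw [← Real.rpow_add hz]
        congr 1; ring
      calc (t / y) ^ A ≤ (y ^ (-η₁)) ^ A := pow_le_pow_left₀ (by positivity) h1 A
        _ = y ^ (-((A : ℝ) * η₁)) := by
            rw [← Real.rpow_natCast, ← Real.rpow_mul hz.le]; congr 1; ring
    have e5 : t ^ (-((A : ℝ) * θ)) ≤ y ^ (-((A : ℝ) * θ)) :=
      Real.rpow_le_rpow_of_nonpos hz hzt (by nlinarith)
    have e6 : t ^ (-(1 / 16) : ℝ) ≤ y ^ (-(1 / 16) : ℝ) :=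
      Real.rpow_le_rpow_of_nonpos hz hzt (by norm_num)
    have e7 : y ^ (1 - η₁) * y ^ (-(7 / 4) + 7 / 4 * η₁ + η₁ ) ≤ t ^ (-(7 / 4) : ℝ) * y := by
      have h1 : (y ^ (1 - η₁)) ^ (-(7 / 4) : ℝ) ≤ t ^ (-(7 / 4) : ℝ) :=
        Real.rpow_le_rpow_of_nonpos ht ht1 (by norm_num)
      calc y ^ (1 - η₁) * y ^ (-(7 / 4) + 7 / 4 * η₁ + η₁)
          = (y ^ (1 - η₁)) ^ (-(7 / 4) : ℝ) * y := by
            rw [← Real.rpow_mul hz.le]
            nth_rewrite 4 [← Real.rpow_one y]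
            rw [← Real.rpow_add hz, ← Real.rpow_add hz]
            congr 1; ring
        _ ≤ t ^ (-(7 / 4) : ℝ) * y := by gcongr
    calc (t / y) ^ A * (3 / t) ^ ((A : ℝ) * θ) * (1 + Real.log (3 / t))
        ≤ y ^ (-((A : ℝ) * η₁)) * (3 ^ A * t ^ (-((A : ℝ) * θ))) * (34 * t ^ (-(1 / 16) : ℝ)) := by
          gcongr
      _ ≤ y ^ (-((A : ℝ) * η₁)) * (3 ^ A * y ^ (-((A : ℝ) * θ))) * (34 * y ^ (-(1 / 16) : ℝ)) := by
          gcongr
      _ = 34 * 3 ^ A * (y ^ (-((A : ℝ) * η₁)) * y ^ (-((A : ℝ) * θ)) * y ^ (-(1 / 16) : ℝ)) := by ring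
      _ = 34 * 3 ^ A * y ^ (-((A : ℝ) * η₁) + -((A : ℝ) * θ) + -(1 / 16)) := by
          rw [Real.rpow_add hz, Real.rpow_add hz]
      _ ≤ 34 * 3 ^ A * y ^ ((1 - η₁) + (-(7 / 4) + 7 / 4 * η₁ + η₁)) := by
          gcongr 34 * 3 ^ A * ?_
          apply Real.rpow_le_rpow_of_exponent_ge hz hz1
          nlinarith
      _ = 34 * 3 ^ A * (y ^ (1 - η₁) * y ^ (-(7 / 4) + 7 / 4 * η₁ + η₁)) := by
          rw [Real.rpow_add hz (1 - η₁)]
      _ ≤ 34 * 3 ^ A * (t ^ (-(7 / 4) : ℝ) * y) := by gcongr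
      _ = (34 * 3 ^ A * 1) * y * t ^ (-(7 / 4) : ℝ) := by ring
      _ ≤ (34 * 3 ^ A * (64 * C₀) ^ (2 * A + 4)) * y * t ^ (-(7 / 4) : ℝ) := by
          gcongr
          exact one_le_pow₀ h64
  · -- general case
    set B := 64 * C₀ with hB
    have hB0 : 0 < B := by linarith
    have hty : 0 < (t / B) ^ (1 + 3 * θ) := by positivity
    have hx1 : 1 + 3 * θ ≤ 2 := by linarith
    have hBr : B ^ (1 + 3 * θ) ≤ B ^ (2 : ℝ) := Real.rpow_le_rpow_of_exponent_le h64 hx1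
    have hsplit : (t / B) ^ (1 + 3 * θ) = t ^ (1 + 3 * θ) / B ^ (1 + 3 * θ) :=
      Real.div_rpow ht.le hB0.le _
    -- `1 / y ≤ B^2 t^{-(1+3θ)}`
    have e0 : 1 / y ≤ B ^ 2 * t ^ (-(1 + 3 * θ)) := by
      calc 1 / y ≤ 1 / (t / B) ^ (1 + 3 * θ) := one_div_le_one_div_of_le hty hcase
        _ = B ^ (1 + 3 * θ) * t ^ (-(1 + 3 * θ)) := by
            rw [hsplit, one_div_div, Real.rpow_neg ht.le, div_eq_mul_inv]
        _ ≤ B ^ 2 * t ^ (-(1 + 3 * θ)) := by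
            have hBr' : B ^ (1 + 3 * θ) ≤ B ^ 2 := by
              rw [Real.rpow_two] at hBr
              exact hBr
            exact mul_le_mul_of_nonneg_right hBr' (by positivity)
    have e1 : t / y ≤ B ^ 2 * t ^ (-(3 * θ)) := by
      calc t / y = t ^ (1 : ℝ) * (1 / y) := by rw [Real.rpow_one]; ring
        _ ≤ t ^ (1 : ℝ) * (B ^ 2 * t ^ (-(1 + 3 * θ))) := by gcongr
        _ = B ^ 2 * (t ^ (1 : ℝ) * t ^ (-(1 + 3 * θ))) := by ring
        _ = B ^ 2 * t ^ (-(3 * θ)) := by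
            rw [← Real.rpow_add ht]; congr 2; ring
    have e2 : (t / y) ^ A ≤ B ^ (2 * A) * t ^ (-(3 * θ * A)) := by
      calc (t / y) ^ A ≤ (B ^ 2 * t ^ (-(3 * θ))) ^ A := pow_le_pow_left₀ (by positivity) e1 A
        _ = B ^ (2 * A) * t ^ (-(3 * θ * A)) := by
            rw [mul_pow, ← pow_mul, ← Real.rpow_natCast (t ^ (-(3 * θ))) A, ← Real.rpow_mul ht.le]
            congr 2; ring
    have e5 : (z / y) ^ (1 + 2 * (1 / 20 : ℝ)) ≤
        z * (B ^ 4 * t ^ (-((1 + 3 * θ) * (1 + 2 * (1 / 20 : ℝ))))) := by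
      calc (z / y) ^ (1 + 2 * (1 / 20 : ℝ))
          = z ^ (1 + 2 * (1 / 20 : ℝ)) * (1 / y) ^ (1 + 2 * (1 / 20 : ℝ)) := by
            rw [← Real.mul_rpow hz.le (by positivity)]; congr 1; ring
        _ ≤ z * (B ^ 2 * t ^ (-(1 + 3 * θ))) ^ (1 + 2 * (1 / 20 : ℝ)) := by
            gcongr
            calc z ^ (1 + 2 * (1 / 20 : ℝ)) ≤ z ^ (1 : ℝ) :=
                  Real.rpow_le_rpow_of_exponent_ge hz hz1 (by norm_num)
              _ = z := Real.rpow_one z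
        _ = z * ((B ^ 2) ^ (1 + 2 * (1 / 20 : ℝ)) *
            t ^ (-((1 + 3 * θ) * (1 + 2 * (1 / 20 : ℝ))))) := by
            rw [Real.mul_rpow (by positivity) (by positivity), ← Real.rpow_mul ht.le]
            congr 3; ring
        _ ≤ z * (B ^ 4 * t ^ (-((1 + 3 * θ) * (1 + 2 * (1 / 20 : ℝ))))) := by
            gcongr
            calc (B ^ 2) ^ (1 + 2 * (1 / 20 : ℝ)) ≤ (B ^ 2) ^ (2 : ℝ) :=
                  Real.rpow_le_rpow_of_exponent_le (one_le_pow₀ h64) (by norm_num)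
              _ = B ^ 4 := by rw [Real.rpow_two]; ring
    have hzy0 : 0 ≤ (z / y) ^ (1 + 2 * (1 / 20 : ℝ)) := by positivity
    calc (t / y) ^ A * (3 / t) ^ ((A : ℝ) * θ) * (1 + Real.log (3 / t)) *
          (z / y) ^ (1 + 2 * (1 / 20 : ℝ))
        ≤ (B ^ (2 * A) * t ^ (-(3 * θ * A))) * (3 ^ A * t ^ (-((A : ℝ) * θ))) *
          (34 * t ^ (-(1 / 16) : ℝ)) *
          (z * (B ^ 4 * t ^ (-((1 + 3 * θ) * (1 + 2 * (1 / 20 : ℝ)))))) := by
          gcongr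
      _ = 34 * 3 ^ A * B ^ (2 * A + 4) * z * (t ^ (-(3 * θ * A)) * t ^ (-((A : ℝ) * θ)) *
          t ^ (-(1 / 16) : ℝ) * t ^ (-((1 + 3 * θ) * (1 + 2 * (1 / 20 : ℝ))))) := by
          rw [pow_add]; ring
      _ = 34 * 3 ^ A * B ^ (2 * A + 4) * z * t ^ (-(3 * θ * A) + -((A : ℝ) * θ) + -(1 / 16) +
          -((1 + 3 * θ) * (1 + 2 * (1 / 20 : ℝ)))) := by
          rw [Real.rpow_add ht, Real.rpow_add ht, Real.rpow_add ht]
      _ ≤ 34 * 3 ^ A * B ^ (2 * A + 4) * z * t ^ (-(7 / 4) : ℝ) := by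
          gcongr 34 * 3 ^ A * B ^ (2 * A + 4) * z * ?_
          apply Real.rpow_le_rpow_of_exponent_ge ht ht1'
          nlinarith

end Fin
end P004E
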